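import Vale.Agent.P025.R2.H816.J03
import Vale.Agent.P025.R2.H373.Defs

/-!
# P025, section 7 (G-START): definitions (helper621)

Places, closed discs of places, approximate `n`-th powers on sets of places, the embedding
`C(t) → K`, `t ↦ T`.
-/

open Polynomial TensorProduct

universe u

namespace P025H621

open Vale.Agent.P019P P025H373

section Places

variable {C K : Type u} [NormedField C] [Field K] [Algebra C K] [CFF C K]

/-- `z` is regular at the place `P` with value in the closed ball of radius `r` about `a`. -/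
def InBall (P : Plk C K) (z : K) (a : C) (r : ℝ) : Prop :=
  ∃ c : C, ‖c - a‖ ≤ r ∧ z - algebraMap C K c ∈ Mge P 1

/-- the places with `|z - a| ≤ r` -/
def Disc (z : K) (a : C) (r : ℝ) : Set (Plk C K) := {P | InBall P z a r}

/-- the inner side of `T`: the places with `|T| ≤ 1` -/
def Inn (T : K) : Set (Plk C K) := Disc T 0 1

/-- `f` is an `n`-th power up to `ε` on the set `U` of places: there is `g ∈ Kˣ` with
`|(f/gⁿ)(P) - 1| ≤ ε` (in particular `ord_P f = n ord_P g` if `ε < 1`) for all `P ∈ U`. -/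
def PowOn (n : ℕ) (ε : ℝ) (U : Set (Plk C K)) (f : K) : Prop :=
  ∃ g : K, g ≠ 0 ∧ ∀ P ∈ U, InBall P (f / g ^ n) 1 ε

theorem PowOn.mono {n : ℕ} {ε : ℝ} {U V : Set (Plk C K)} {f : K} (h : PowOn n ε V f)
    (hU : U ⊆ V) : PowOn n ε U f := by
  obtain ⟨g, hg, h⟩ := h
  exact ⟨g, hg, fun P hP => h P (hU hP)⟩

theorem InBall.mono {P : Plk C K} {z : K} {a : C} {r s : ℝ} (h : InBall P z a r) (hrs : r ≤ s) :
    InBall P z a s := by
  obtain ⟨c, hc, h⟩ := h
  exact ⟨c, hc.trans hrs, h⟩

theorem PowOn.mono_eps {n : ℕ} {ε ε' : ℝ} {U : Set (Plk C K)} {f : K} (h : PowOn n ε U f)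
    (hU : ε ≤ ε') : PowOn n ε' U f := by
  obtain ⟨g, hg, h⟩ := h
  exact ⟨g, hg, fun P hP => (h P hP).mono hU⟩

/-- all orders of `f` are divisible by `n` -/
def DivN (C : Type u) {K : Type u} [NormedField C] [Field K] [Algebra C K] [CFF C K]
    (n : ℕ) (f : K) : Prop :=
  ∀ P : Plk C K, (n : ℤ) ∣ ord P f

end Places

section Embedding

variable {C K : Type u} [Field C] [Field K] [Algebra C K]

/-- the embedding `C(t) → K`, `t ↦ T`. -/
noncomputable def emb (T : K) (hT : Transcendental C T) : RatFunc C →ₐ[C] K :=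
  IsFractionRing.liftAlgHom (g := (aeval T : C[X] →ₐ[C] K)) (transcendental_iff_injective.1 hT)

@[simp] theorem emb_algebraMap (T : K) (hT : Transcendental C T) (P : C[X]) :
    emb T hT (algebraMap C[X] (RatFunc C) P) = aeval T P := by
  simp [emb, IsFractionRing.liftAlgHom_apply]

@[simp] theorem emb_X (T : K) (hT : Transcendental C T) : emb T hT RatFunc.X = T := by
  rw [← RatFunc.algebraMap_X, emb_algebraMap, aeval_X]

/-- the structure of `C(t)`-algebra on `K`, `t ↦ T`. -/
@[reducible] noncomputable def algT (T : K) (hT : Transcendental C T) : Algebra (RatFunc C) K :=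
  (emb T hT).toRingHom.toAlgebra

end Embedding

end P025H621
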