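import Mathlib

/-!
# `p`-th roots close to `1` in a complete ultrametric field (helper621)

`|x - 1|^(p-1) < |p|^p` implies that `x` is a `p`-th power.  Mathlib only.
-/

namespace P025H621

open Filter Topology

variable {M : Type*} [NormedField M] [IsUltrametricDist M]

theorem norm_sum_le_of_forall {ι : Type*} (s : Finset ι) (f : ι → M) {r : ℝ} (hr : 0 ≤ r)
    (h : ∀ i ∈ s, ‖f i‖ ≤ r) : ‖∑ i ∈ s, f i‖ ≤ r :=
  IsUltrametricDist.norm_sum_le_of_forall_le_of_nonneg hr h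

/-- one Newton step -/
theorem newton_step {p : ℕ} (hp : p.Prime) (hp0 : (p : M) ≠ 0) (hp1 : ‖(p : M)‖ < 1) {x : M}
    {s : ℝ} (hs0 : 0 ≤ s) (hs1 : s < 1) (hs : ‖x - 1‖ ≤ ‖(p : M)‖ * s) :
    ∃ z : M, ‖z - 1‖ ≤ s ∧ ‖z‖ = 1 ∧
      ‖x / z ^ p - 1‖ ≤ ‖(p : M)‖ * (s * max s (s ^ (p - 1) / ‖(p : M)‖)) := by
  have hpn : 0 < ‖(p : M)‖ := norm_pos_iff.2 hp0
  set u : M := (x - 1) / p with hu
  have hus : ‖u‖ ≤ s := by
    rw [hu, norm_div, div_le_iff₀ hpn, mul_comm]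
    exact hs
  have hz : ‖(1 + u) - 1‖ ≤ s := by rwa [add_sub_cancel_left]
  have hz1 : ‖(1 + u : M)‖ = 1 := by
    have h1 : ‖u‖ < ‖(1 : M)‖ := by rw [norm_one]; exact lt_of_le_of_lt hus hs1
    have := IsUltrametricDist.norm_add_eq_max_of_norm_ne_norm h1.ne'
    rw [this, max_eq_left h1.le, norm_one]
  refine ⟨1 + u, hz, hz1, ?_⟩
  have hz0 : (1 + u : M) ^ p ≠ 0 := pow_ne_zero _ (norm_ne_zero_iff.1 (by rw [hz1]; exact one_ne_zero))
  have e1 : x / (1 + u) ^ p - 1 = (x - (1 + u) ^ p) / (1 + u) ^ p := by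
    rw [sub_div, div_self hz0]
  rw [e1, norm_div, norm_pow, hz1, one_pow, div_one]
  have e2 : (1 + u) ^ p = x + ∑ i ∈ Finset.Ico 2 (p + 1), u ^ i * (p.choose i : M) := by
    have h2 : 2 ≤ p := hp.two_le
    rw [add_comm 1 u, add_pow]
    simp only [one_pow, mul_one]
    rw [Finset.range_eq_Ico, Finset.sum_eq_sum_Ico_succ_bot (by omega),
      Finset.sum_eq_sum_Ico_succ_bot (by omega)]
    simp only [zero_add, pow_zero, one_mul, Nat.choose_zero_right, Nat.cast_one, pow_one,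
      Nat.choose_one_right]
    have : u * (p : M) = x - 1 := by rw [hu, div_mul_cancel₀ _ hp0]
    rw [this]
    ring
  have hM : 0 ≤ s * max s (s ^ (p - 1) / ‖(p : M)‖) :=
    mul_nonneg hs0 (le_max_of_le_left hs0)
  rw [e2, sub_add_cancel_left, norm_neg]
  refine norm_sum_le_of_forall _ _ (mul_nonneg hpn.le hM) fun i hi => ?_
  rw [Finset.mem_Ico] at hi
  rw [norm_mul, norm_pow]
  have hui : ‖u‖ ^ i ≤ s ^ i := pow_le_pow_left₀ (norm_nonneg _) hus i
  rcases lt_or_eq_of_le (Nat.lt_succ_iff.1 hi.2) with hip | hip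
  · -- `p ∣ choose`
    have hdvd : p ∣ p.choose i := hp.dvd_choose_self (by omega) hip
    have hc : ‖(p.choose i : M)‖ ≤ ‖(p : M)‖ := by
      obtain ⟨k, hk⟩ := hdvd
      rw [hk, Nat.cast_mul, norm_mul]
      exact mul_le_of_le_one_right hpn.le (IsUltrametricDist.norm_natCast_le_one M k)
    calc ‖u‖ ^ i * ‖(p.choose i : M)‖ ≤ s ^ i * ‖(p : M)‖ :=
          mul_le_mul hui hc (norm_nonneg _) (pow_nonneg hs0 _)
      _ ≤ s ^ 2 * ‖(p : M)‖ := by
          gcongr ?_ * _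
          exact pow_le_pow_of_le_one hs0 hs1.le hi.1
      _ = ‖(p : M)‖ * (s * s) := by ring
      _ ≤ _ := by
          gcongr
          exact le_max_left _ _
  · subst hip
    rw [Nat.choose_self, Nat.cast_one, norm_one, mul_one]
    calc ‖u‖ ^ i ≤ s ^ i := hui
      _ = ‖(i : M)‖ * (s * (s ^ (i - 1) / ‖(i : M)‖)) := by
          have e3 : s ^ i = s * s ^ (i - 1) := by
            rw [← pow_succ', Nat.sub_add_cancel (by omega)]
          rw [← mul_div_assoc, ← e3, mul_div_cancel₀ _ hpn.ne']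
      _ ≤ _ := by
          gcongr
          exact le_max_right _ _

theorem exists_root [CompleteSpace M] {p : ℕ} (hp : p.Prime) (hp0 : (p : M) ≠ 0)
    (hp1 : ‖(p : M)‖ < 1) {x : M} (hx : ‖x - 1‖ ^ (p - 1) < ‖(p : M)‖ ^ p) :
    ∃ z : M, z ^ p = x ∧ z ≠ 0 := by
  have hpn : 0 < ‖(p : M)‖ := norm_pos_iff.2 hp0
  have hpp : 1 ≤ p - 1 := by have := hp.two_le; omega
  set s : ℝ := ‖x - 1‖ / ‖(p : M)‖ with hs
  have hs0 : 0 ≤ s := by positivity
  have hxs : ‖x - 1‖ = ‖(p : M)‖ * s := by rw [hs, mul_div_cancel₀ _ hpn.ne']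
  have hsp : s ^ (p - 1) < ‖(p : M)‖ := by
    rw [hs, div_pow, div_lt_iff₀ (pow_pos hpn _), ← pow_succ']
    rwa [Nat.sub_add_cancel (by omega)]
  have hs1 : s < 1 := by
    by_contra h
    push Not at h
    exact absurd (one_le_pow₀ h (n := p - 1)) (not_le.2 (hsp.trans hp1))
  set θ : ℝ := max s (s ^ (p - 1) / ‖(p : M)‖) with hθ
  have hθ0 : 0 ≤ θ := le_max_of_le_left hs0
  have hθ1 : θ < 1 := max_lt hs1 (by rw [div_lt_one hpn]; exact hsp)
  -- sequence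
  have step : ∀ (n : ℕ) (y : M), ‖y - 1‖ ≤ ‖(p : M)‖ * (s * θ ^ n) →
      ∃ z : M, ‖z - 1‖ ≤ s * θ ^ n ∧ ‖z‖ = 1 ∧ ‖y / z ^ p - 1‖ ≤ ‖(p : M)‖ * (s * θ ^ (n + 1)) := by
    intro n y hy
    have h0 : 0 ≤ s * θ ^ n := by positivity
    have h1 : s * θ ^ n ≤ s := mul_le_of_le_one_right hs0 (pow_le_one₀ hθ0 hθ1.le)
    obtain ⟨z, hz, hz1, hz2⟩ := newton_step hp hp0 hp1 h0 (h1.trans_lt hs1) hy
    refine ⟨z, hz, hz1, hz2.trans ?_⟩
    rw [pow_succ, ← mul_assoc s]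
    gcongr ‖(p : M)‖ * (s * θ ^ n * ?_)
    refine max_le_max h1 ?_
    gcongr
  choose! Z hZ1 hZ2 hZ3 using step
  let Y : ℕ → M := fun n => Nat.rec x (fun n y => y / Z n y ^ p) n
  have hY0 : Y 0 = x := rfl
  have hYs : ∀ n, Y (n + 1) = Y n / Z n (Y n) ^ p := fun n => rfl
  have hY : ∀ n, ‖Y n - 1‖ ≤ ‖(p : M)‖ * (s * θ ^ n) := by
    intro n
    induction n with
    | zero => rw [hY0, pow_zero, mul_one, hxs]
    | succ n ih => rw [hYs]; exact hZ3 n _ ih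
  let P : ℕ → M := fun n => ∏ i ∈ Finset.range n, Z i (Y i)
  have hPn : ∀ n, ‖P n‖ = 1 := by
    intro n
    rw [norm_prod]
    exact Finset.prod_eq_one fun i _ => hZ2 i _ (hY i)
  have hP0 : ∀ n, P n ≠ 0 := fun n => norm_ne_zero_iff.1 (by rw [hPn]; exact one_ne_zero)
  have hPY : ∀ n, P n ^ p * Y n = x := by
    intro n
    induction n with
    | zero => simp [P, hY0]
    | succ n ih =>
      have hz : Z n (Y n) ≠ 0 := norm_ne_zero_iff.1 (by rw [hZ2 n _ (hY n)]; exact one_ne_zero)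
      have e : P (n + 1) = P n * Z n (Y n) := Finset.prod_range_succ _ _
      rw [e, hYs, mul_pow, mul_assoc, mul_div_cancel₀ _ (pow_ne_zero _ hz), ih]
  have hcau : CauchySeq P := by
    refine cauchySeq_of_le_geometric θ s hθ1 fun n => ?_
    rw [dist_comm, dist_eq_norm]
    have e : P (n + 1) = P n * Z n (Y n) := Finset.prod_range_succ _ _
    rw [e, ← mul_sub_one, norm_mul, hPn, one_mul]
    exact hZ1 n _ (hY n)
  obtain ⟨z, hz⟩ := cauchySeq_tendsto_of_complete hcau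
  have hYlim : Tendsto Y atTop (𝓝 1) := by
    rw [tendsto_iff_norm_sub_tendsto_zero]
    refine squeeze_zero (fun n => norm_nonneg _) hY ?_
    have : Tendsto (fun n : ℕ => ‖(p : M)‖ * (s * θ ^ n)) atTop (𝓝 (‖(p : M)‖ * (s * 0))) :=
      ((tendsto_pow_atTop_nhds_zero_of_lt_one hθ0 hθ1).const_mul s).const_mul _
    simpa using this
  refine ⟨z, ?_, ?_⟩
  · have h1 : Tendsto (fun n => P n ^ p * Y n) atTop (𝓝 (z ^ p * 1)) := (hz.pow p).mul hYlim
    have h2 : Tendsto (fun n => P n ^ p * Y n) atTop (𝓝 x) := by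
      simp only [hPY]
      exact tendsto_const_nhds
    have := tendsto_nhds_unique h1 h2
    rwa [mul_one] at this
  · have h1 : Tendsto (fun n => ‖P n‖) atTop (𝓝 ‖z‖) := hz.norm
    simp only [hPn] at h1
    have : ‖z‖ = 1 := tendsto_nhds_unique h1 tendsto_const_nhds
    exact norm_ne_zero_iff.1 (by rw [this]; exact one_ne_zero)

end P025H621
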