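import Vale.Agent.P025.R2.H746.Defs
import Vale.Agent.P025.R2.H621.Root

/-!
# Finite extensions of the Gauss field and norms on `K` (helper621)

`Ω` finite over `F0 C`, `φ : K → Ω` over `C(t)`: the spectral norm induces `nvOf φ : NV C K`;
roots in `Ω`, windings of norms.
-/

open Polynomial

universe u

set_option linter.unusedSectionVars false
set_option linter.style.haveILetI false

namespace P025H621

open P025H373 P025H746

noncomputable section

section F0

variable (C : Type u) [NontriviallyNormedField C] [IsUltrametricDist C]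

/-- `F0 C` as a nontrivially normed field. -/
@[reducible] def nnF0 : NontriviallyNormedField (F0 C) :=
  { (inferInstance : NormedField (F0 C)) with
    non_trivial := by
      obtain ⟨x, hx⟩ := NontriviallyNormedField.non_trivial (α := C)
      exact ⟨algebraMap C (F0 C) x, by rwa [norm_algebraMap_C]⟩ }

instance [CharZero C] : CharZero (F0 C) :=
  charZero_of_injective_algebraMap (algebraMap C (F0 C)).injective

instance [CharZero C] : CharZero (RatFunc C) :=
  charZero_of_injective_algebraMap (algebraMap C (RatFunc C)).injective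

end F0

section Omega

variable {C : Type u} [NontriviallyNormedField C] [IsUltrametricDist C]
variable {Ω : Type*} [Field Ω] [Algebra (F0 C) Ω] [FiniteDimensional (F0 C) Ω]

local instance : NontriviallyNormedField (F0 C) := nnF0 C

/-- spectral norm -/
abbrev sn (x : Ω) : ℝ := spectralNorm (F0 C) Ω x

theorem sn_mul (x y : Ω) : sn (C := C) (x * y) = sn (C := C) x * sn (C := C) y :=
  map_mul (spectralMulAlgNorm (F0 C) Ω) x y

theorem sn_one : sn (C := C) (1 : Ω) = 1 := spectralNorm_one

theorem sn_na : IsNonarchimedean (fun x : Ω => sn (C := C) x) := isNonarchimedean_spectralNorm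

theorem sn_alg (c : F0 C) : sn (C := C) (algebraMap (F0 C) Ω c) = ‖c‖ := spectralNorm_extends c

theorem sn_eq_zero {x : Ω} : sn (C := C) x = 0 ↔ x = 0 := by
  constructor
  · exact fun h => eq_zero_of_map_spectralNorm_eq_zero h (Algebra.IsAlgebraic.isAlgebraic x)
  · rintro rfl
    exact spectralNorm_zero

variable {K : Type*} [Field K] [Algebra C K] [Algebra (RatFunc C) K]
  [IsScalarTower C (RatFunc C) K]

/-- the norm on `K` induced by `K → Ω` -/
def nvOf (φ : K →+* Ω)
    (hφ : ∀ r : RatFunc C, φ (algebraMap (RatFunc C) K r) =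
      algebraMap (F0 C) Ω (algebraMap (RatFunc C) (F0 C) r)) : NV C K where
  av :=
    { toFun := fun x => sn (C := C) (φ x)
      map_mul' := fun x y => by rw [map_mul, sn_mul]
      nonneg' := fun x => spectralNorm_nonneg _
      eq_zero' := fun x => by rw [sn_eq_zero, map_eq_zero]
      add_le' := fun x y => by
        rw [map_add]
        exact (sn_na _ _).trans (max_le_add_of_nonneg (spectralNorm_nonneg _)
          (spectralNorm_nonneg _)) }
  na := fun x y => by
    change sn (C := C) (φ (x + y)) ≤ _
    rw [map_add]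
    exact sn_na _ _
  ext' := fun c => by
    change sn (C := C) (φ (algebraMap C K c)) = ‖c‖
    rw [IsScalarTower.algebraMap_apply C (RatFunc C) K, hφ, sn_alg, P025H373.norm_algebraMap]
    have := gauss_poly (Polynomial.C c)
    simpa using this

variable (φ : K →+* Ω) (hφ : ∀ r : RatFunc C, φ (algebraMap (RatFunc C) K r) =
      algebraMap (F0 C) Ω (algebraMap (RatFunc C) (F0 C) r))

theorem nvOf_apply (x : K) : nvOf φ hφ x = sn (C := C) (φ x) := rfl

theorem aeval_X (P : C[X]) : aeval (algebraMap (RatFunc C) K RatFunc.X) P =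
    algebraMap (RatFunc C) K (algebraMap C[X] (RatFunc C) P) := by
  rw [← RatFunc.algebraMap_X, aeval_algebraMap_apply, aeval_algebraMap_apply, aeval_X_left_apply]

theorem nvOf_overG : (nvOf φ hφ).OverG (algebraMap (RatFunc C) K RatFunc.X) := by
  intro P
  rw [nvOf_apply, aeval_X, hφ, sn_alg, P025H373.norm_algebraMap, gauss_poly]

/-- `p`-th roots in `Ω` -/
theorem exists_root_of_near {p : ℕ} (hp : p.Prime) (hp0 : (p : C) ≠ 0) (hpC : ‖(p : C)‖ < 1)
    {f y : K} (hy : y ≠ 0)
    (h : (nvOf φ hφ (f / y ^ p - 1)) ^ (p - 1) < ‖(p : C)‖ ^ p) :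
    ∃ z : Ω, z ^ p = φ f := by
  letI : NormedField Ω := spectralNorm.normedField (F0 C) Ω
  have hcomp : CompleteSpace Ω := spectralNorm.completeSpace (F0 C) Ω
  have hult : IsUltrametricDist Ω :=
    IsUltrametricDist.isUltrametricDist_of_isNonarchimedean_norm (sn_na (C := C) (Ω := Ω))
  have hnat : ∀ n : ℕ, ‖(n : Ω)‖ = ‖(n : C)‖ := by
    intro n
    change sn (C := C) (n : Ω) = ‖(n : C)‖
    have h1 : (n : Ω) = algebraMap (F0 C) Ω (algebraMap C (F0 C) (n : C)) := by simp
    rw [h1, sn_alg, norm_algebraMap_C]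
  have hp0' : (p : Ω) ≠ 0 := by
    rw [← norm_ne_zero_iff, hnat, norm_ne_zero_iff]
    exact hp0
  have hφy : φ y ≠ 0 := by rwa [Ne, map_eq_zero]
  obtain ⟨z, hz, -⟩ := exists_root (M := Ω) hp hp0' (by rw [hnat]; exact hpC)
    (x := φ f / φ y ^ p) (by
      rw [hnat]
      have h2 : φ f / φ y ^ p - 1 = φ (f / y ^ p - 1) := by simp
      rw [h2]
      exact h)
  refine ⟨z * φ y, ?_⟩
  rw [mul_pow, hz, div_mul_cancel₀ _ (pow_ne_zero _ hφy)]

/-- the norm of `1 + b`, `|b| < 1`. -/
theorem norm_norm_sub_one_lt [CharZero C] {x : Ω} (hx : sn (C := C) (x - 1) < 1) :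
    ‖Algebra.norm (F0 C) x - 1‖ < 1 := by
  set E := AlgebraicClosure (F0 C) with hE
  letI : NormedField E := spectralNorm.normedField (F0 C) E
  have hult : IsUltrametricDist E :=
    IsUltrametricDist.isUltrametricDist_of_isNonarchimedean_norm
      (isNonarchimedean_spectralNorm (K := F0 C) (L := E))
  have h1 : ‖algebraMap (F0 C) E (Algebra.norm (F0 C) x) - 1‖ < 1 := by
    rw [Algebra.norm_eq_prod_embeddings (F0 C) E x]
    have key : ∀ (s : Finset (Ω →ₐ[F0 C] E)), ‖∏ σ ∈ s, σ x - 1‖ < 1 := by
      classical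
      intro s
      induction s using Finset.induction_on with
      | empty => simp
      | insert σ s hσ ih =>
        rw [Finset.prod_insert hσ]
        have h2 : ‖σ x - 1‖ < 1 := by
          have h3 : σ x - 1 = σ (x - 1) := by simp
          rw [h3]
          change spectralNorm (F0 C) E (σ (x - 1)) < 1
          rw [spectralNorm, minpoly.algHom_eq σ σ.toRingHom.injective]
          exact hx
        have h4 : ‖σ x‖ ≤ 1 := by
          have : σ x = (σ x - 1) + 1 := by ring
          rw [this]
          refine (IsUltrametricDist.norm_add_le_max _ _).trans (max_le h2.le ?_)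
          rw [norm_one]
        have e : σ x * ∏ σ ∈ s, σ x - 1 = σ x * (∏ σ ∈ s, σ x - 1) + (σ x - 1) := by ring
        rw [e]
        refine (IsUltrametricDist.norm_add_le_max _ _).trans_lt (max_lt ?_ h2)
        rw [norm_mul]
        exact mul_lt_one_of_nonneg_of_lt_one_right h4 (norm_nonneg _) ih
    exact key Finset.univ
  have h5 : ‖algebraMap (F0 C) E (Algebra.norm (F0 C) x) - 1‖ = ‖Algebra.norm (F0 C) x - 1‖ := by
    rw [← map_one (algebraMap (F0 C) E), ← map_sub]
    exact spectralNorm_extends _
  rwa [h5] at h1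

end Omega

end

end P025H621
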