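import Vale.Agent.P025.R2.H746.Defs
import Vale.Agent.P025.R2.H621.Over

/-!
# The completion of `K` at a norm `w` over the Gauss norm (helper621)
-/

open Polynomial TensorProduct

universe u

set_option linter.unusedSectionVars false
set_option linter.style.haveILetI false

namespace P025H621

open P025H373 P025H746

noncomputable section

section

variable {C K : Type*} [NontriviallyNormedField C] [IsUltrametricDist C] [Field K] [Algebra C K]

/-- the embedding of `K` in its completion at `w` -/
def iK (w : NV C K) : K →+* w.av.Completion :=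
  (UniformSpace.Completion.coeRingHom (α := WithAbs w.av)).comp
    ((WithAbs.equiv w.av).symm : K →+* WithAbs w.av)

theorem norm_iK (w : NV C K) (x : K) : ‖iK w x‖ = w x := by
  change ‖((WithAbs.toAbs w.av x : WithAbs w.av) : UniformSpace.Completion (WithAbs w.av))‖ = _
  rw [UniformSpace.Completion.norm_coe]
  rfl

theorem denseRange_iK (w : NV C K) : DenseRange (iK w) := by
  have h := UniformSpace.Completion.denseRange_coe (α := WithAbs w.av)
  have h2 : Function.Surjective ((WithAbs.equiv w.av).symm) := (WithAbs.equiv w.av).symm.surjective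
  exact h.comp h2.denseRange (UniformSpace.Completion.continuous_coe _)

instance (w : NV C K) : IsUltrametricDist w.av.Completion := by
  refine IsUltrametricDist.isUltrametricDist_of_forall_norm_add_le_max_norm fun x y => ?_
  refine (denseRange_iK w).induction_on₂
    (p := fun x y : w.av.Completion => ‖x + y‖ ≤ max ‖x‖ ‖y‖) ?_ ?_ x y
  · exact isClosed_le (continuous_fst.add continuous_snd).norm
      (continuous_fst.norm.max continuous_snd.norm)
  · intro f g
    rw [← map_add, norm_iK, norm_iK, norm_iK]
    exact w.na f g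

theorem norm_pow_sub_one_le {M : Type*} [NormedField M] [IsUltrametricDist M] {u : M}
    (hu : ‖u‖ ≤ 1) (n : ℕ) : ‖u ^ n - 1‖ ≤ ‖u - 1‖ := by
  induction n with
  | zero => simp
  | succ n ih =>
    have e : u ^ (n + 1) - 1 = u * (u ^ n - 1) + (u - 1) := by ring
    rw [e]
    refine (IsUltrametricDist.norm_add_le_max _ _).trans (max_le ?_ le_rfl)
    rw [norm_mul]
    exact (mul_le_of_le_one_left (norm_nonneg _) hu).trans ih

variable [Algebra (RatFunc C) K] [IsScalarTower C (RatFunc C) K]

theorem over_ratFunc {w : NV C K} (hw : w.OverG (algebraMap (RatFunc C) K RatFunc.X))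
    (r : RatFunc C) : w (algebraMap (RatFunc C) K r) = gauss C r := by
  have key : ∀ P : C[X], w (algebraMap (RatFunc C) K (algebraMap C[X] (RatFunc C) P)) = gp P := by
    intro P
    rw [← hw P, aeval_X]
  conv_lhs => rw [← r.num_div_denom]
  rw [map_div₀, map_div₀, key, key]
  conv_rhs => rw [← r.num_div_denom]
  rw [gauss_div]

/-- `F0 C →` completion of `K` -/
theorem isometry_pre {w : NV C K} (hw : w.OverG (algebraMap (RatFunc C) K RatFunc.X)) :
    Isometry (((iK w).comp (algebraMap (RatFunc C) K)).comp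
      ((WithAbs.equiv (gauss C)) : WithAbs (gauss C) →+* RatFunc C)) := by
  refine AddMonoidHomClass.isometry_of_norm _ fun x => ?_
  change ‖iK w (algebraMap (RatFunc C) K (WithAbs.equiv (gauss C) x))‖ = _
  rw [norm_iK, over_ratFunc hw]
  rfl

/-- `F0 C →` completion of `K` -/
def psi {w : NV C K} (hw : w.OverG (algebraMap (RatFunc C) K RatFunc.X)) :
    F0 C →+* w.av.Completion :=
  (isometry_pre hw).extensionHom

theorem psi_algebraMap {w : NV C K} (hw : w.OverG (algebraMap (RatFunc C) K RatFunc.X))
    (r : RatFunc C) : psi hw (algebraMap (RatFunc C) (F0 C) r) =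
      iK w (algebraMap (RatFunc C) K r) :=
  (isometry_pre hw).extensionHom_coe (WithAbs.toAbs (gauss C) r)

/-- `F0 C ⊗ K →` completion of `K`. -/
theorem exists_psi {w : NV C K} (hw : w.OverG (algebraMap (RatFunc C) K RatFunc.X)) :
    ∃ Ψ : F0 C ⊗[RatFunc C] K →+* w.av.Completion,
      ∀ x : K, Ψ ((1 : F0 C) ⊗ₜ x) = iK w x := by
  letI : Algebra (RatFunc C) w.av.Completion :=
    ((iK w).comp (algebraMap (RatFunc C) K)).toAlgebra
  let f : F0 C →ₐ[RatFunc C] w.av.Completion := { psi hw with commutes' := psi_algebraMap hw }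
  let g : K →ₐ[RatFunc C] w.av.Completion := { iK w with commutes' := fun _ => rfl }
  refine ⟨(Algebra.TensorProduct.productMap f g).toRingHom, fun x => ?_⟩
  change Algebra.TensorProduct.productMap f g (1 ⊗ₜ x) = _
  rw [Algebra.TensorProduct.productMap_apply_tmul, map_one, one_mul]
  rfl

/-- approximation of roots in the completion -/
theorem exists_near_of_root (w : NV C K) {f : K} (hf : f ≠ 0) {n : ℕ} (hn : n ≠ 0)
    {z : w.av.Completion} (hz : z ^ n = iK w f) {ε : ℝ} (hε : 0 < ε) :
    ∃ y : K, y ≠ 0 ∧ w (f / y ^ n - 1) < ε := by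
  have hz0 : z ≠ 0 := by
    rintro rfl
    rw [zero_pow hn, eq_comm, map_eq_zero] at hz
    exact hf hz
  have hzn : 0 < ‖z‖ := norm_pos_iff.2 hz0
  set c : ℝ := min ε (1 / 2) with hc
  have hc0 : 0 < c := by positivity
  have hc1 : c < 1 := lt_of_le_of_lt (min_le_right _ _) (by norm_num)
  obtain ⟨y, hy⟩ := (denseRange_iK w).exists_dist_lt z (ε := c * ‖z‖) (by positivity)
  rw [dist_eq_norm] at hy
  have hyz : ‖iK w y‖ = ‖z‖ := by
    have h1 : ‖z - iK w y‖ < ‖z‖ := hy.trans (by nlinarith)
    have e : iK w y = z + -(z - iK w y) := by ring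
    rw [e]
    rw [← norm_neg (z - iK w y)] at h1
    rw [IsUltrametricDist.norm_add_eq_max_of_norm_ne_norm h1.ne', max_eq_left h1.le]
  have hy0 : y ≠ 0 := by
    rintro rfl
    rw [map_zero, norm_zero] at hyz
    exact hzn.ne hyz
  have hiy : iK w y ≠ 0 := by rwa [Ne, map_eq_zero]
  refine ⟨y, hy0, ?_⟩
  rw [← norm_iK, map_sub, map_div₀, map_pow, map_one, ← hz, ← div_pow]
  refine (norm_pow_sub_one_le ?_ n).trans_lt ?_
  · rw [norm_div, hyz, div_self hzn.ne']
  · rw [div_sub_one hiy, norm_div, hyz, div_lt_iff₀ hzn]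
    exact hy.trans_le (by gcongr; exact min_le_left _ _)

end

end

end P025H621
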