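import Vale.Agent.P025.R2.H621.Defs
import Vale.Agent.P025.R2.H746.Defs

/-!
# P025, section 7 (G-START): definitions (helper621)

`SplitW`, `NearW`, `Spl`, `Over`, `NearAll`, `IsCover`, `SplitNear`.
-/

open Polynomial TensorProduct

universe u

namespace P025H621

open Vale.Agent.P019P P025H373 P025H746

noncomputable section

/-! ## split and near -/

section Split

variable {C K : Type u} [NormedField C] [IsUltrametricDist C] [Field K] [Algebra C K]

/-- `f` is a `p`-th power in the completion of `w`: `|f/y^p - 1|_w < |λ|^p`, `|λ|^{p-1} = |p|`. -/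
def SplitW (p : ℕ) (w : NV C K) (f : K) : Prop :=
  ∃ y : K, y ≠ 0 ∧ (w (f / y ^ p - 1)) ^ (p - 1) < ‖(p : C)‖ ^ p

/-- the conclusion of (7.2): `|f/y^p - 1|_w ≤ |λ|^p`. -/
def NearW (p : ℕ) (w : NV C K) (f : K) : Prop :=
  ∃ y : K, y ≠ 0 ∧ (w (f / y ^ p - 1)) ^ (p - 1) ≤ ‖(p : C)‖ ^ p

/-- `f` is split at all norms over the Gauss norm of `T`. -/
def Spl (p : ℕ) (T f : K) : Prop := ∀ w : NV C K, w.OverG T → SplitW p w f

end Split

/-- the places over `t = b` -/
def Over {C K : Type u} [NormedField C] [IsUltrametricDist C] [IsAlgClosed C] [Field K]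
    [Algebra C K] [CFF C K] (t : K) (b : C) : Set (Plk C K) :=
  {P | t - algebraMap C K b ∈ Mge P 1}

/-! ## the conclusions of (7.2), (7.3) -/

section Main

variable (C : Type u) [NontriviallyNormedField C] [IsUltrametricDist C] [CompleteSpace C]
  [IsAlgClosed C] [CharZero C]

/-- the conclusion of (7.2) for all classes of `L` and all norms of type 2 -/
def NearAll (p : ℕ) (L : Type u) [Field L] [Algebra C L] [CFF C L] : Prop :=
  ∀ g : L, g ≠ 0 → DivN C p g → ∀ (T : L) (w : NV C L), w.OverG T → NearW p w g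

/-- `W = K(f^(1/p))`, `div f = 0 mod p` -/
def IsCover (p : ℕ) (K W : Type u) [Field K] [Algebra C K] [CFF C K] [Field W] [Algebra K W] :
    Prop :=
  ∃ (f : K) (β : W), f ≠ 0 ∧ DivN C p f ∧ β ^ p = algebraMap K W f ∧
    IntermediateField.adjoin K {β} = ⊤

/-- (7.3)(a): `f` is split just outside of every disc. -/
def SplitNear (p : ℕ) (K : Type u) [Field K] [Algebra C K] [CFF C K] : Prop :=
  ∀ f : K, f ≠ 0 → DivN C p f → ∀ (t : K), Transcendental C t → ∀ (a b : C), b ≠ 0 →
    ∃ r₁, ‖b‖ < r₁ ∧ ∀ b' : C, ‖b‖ < ‖b'‖ → ‖b'‖ < r₁ →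
      Spl (C := C) p ((t - algebraMap C K a) / algebraMap C K b') f

end Main

end

end P025H621
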