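import Vale.Agent.P025.R2.H621.Over
import Vale.Agent.P025.R2.H621.Comp
import Vale.Agent.P025.R2.H621.Defs7
import Vale.Agent.P025.R2.H544.Points
import Vale.Agent.P025.R2.H373.Gauss
import Vale.Agent.P025.R2.H725.OneVertex

/-!
# (D0): split at all `w` over the Gauss norm iff `p`-th power in `F0 ⊗ K`; windings (helper621)
-/

open Polynomial TensorProduct

universe u

set_option linter.unusedSectionVars false
set_option linter.style.haveILetI false

namespace P025H621

open Vale.Agent.P019P P025H373 P025H544 P025H746 P025H725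

noncomputable section

section

variable {C K : Type u} [NontriviallyNormedField C] [IsUltrametricDist C] [CompleteSpace C]
  [IsAlgClosed C] [CharZero C] [Field K] [Algebra C K] [Algebra (RatFunc C) K]
  [IsScalarTower C (RatFunc C) K] [FiniteDimensional (RatFunc C) K]

/-- the residue field at `e` as a field -/
@[reducible] def fieldRes (e : Pt (RatFunc C) (F0 C) K) :
    Field (Res (RatFunc C) (F0 C) K e) :=
  letI := isMaximal_pt e
  Ideal.Quotient.field e.asIdeal

theorem finite_Res (e : Pt (RatFunc C) (F0 C) K) :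
    Module.Finite (F0 C) (Res (RatFunc C) (F0 C) K e) :=
  Module.Finite.of_surjective (Ideal.Quotient.mkₐ (F0 C) e.asIdeal).toLinearMap
    Ideal.Quotient.mk_surjective

/-- `K → Res e` -/
def toRes (e : Pt (RatFunc C) (F0 C) K) : K →+* Res (RatFunc C) (F0 C) K e :=
  (Ideal.Quotient.mk e.asIdeal).comp
    (Algebra.TensorProduct.includeRight : K →ₐ[RatFunc C] F0 C ⊗[RatFunc C] K).toRingHom

theorem toRes_apply (e : Pt (RatFunc C) (F0 C) K) (x : K) :
    toRes e x = Ideal.Quotient.mk e.asIdeal ((1 : F0 C) ⊗ₜ[RatFunc C] x) := rfl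

theorem toRes_algebraMap (e : Pt (RatFunc C) (F0 C) K) (r : RatFunc C) :
    toRes e (algebraMap (RatFunc C) K r) =
      algebraMap (F0 C) (Res (RatFunc C) (F0 C) K e) (algebraMap (RatFunc C) (F0 C) r) := by
  rw [toRes_apply, ← Algebra.TensorProduct.tmul_one_eq_one_tmul]
  rfl

theorem exists_root_res {p : ℕ} (hp : p.Prime) (hpC : ‖(p : C)‖ < 1) {f : K}
    (hf : Spl (C := C) p (algebraMap (RatFunc C) K RatFunc.X) f) (e : Pt (RatFunc C) (F0 C) K) :
    ∃ z : Res (RatFunc C) (F0 C) K e, z ^ p = toRes e f := by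
  letI := fieldRes e
  haveI := finite_Res e
  obtain ⟨y, hy, h⟩ := hf (nvOf (toRes e) (toRes_algebraMap e)) (nvOf_overG _ _)
  exact exists_root_of_near (toRes e) (toRes_algebraMap e) hp
    (Nat.cast_ne_zero.2 hp.ne_zero) hpC hy h

theorem isSep : Algebra.IsSeparable (RatFunc C) K := inferInstance

/-- from local roots to a root in `F0 ⊗ K`. -/
theorem powIn_of_res {p : ℕ} {f : K}
    (h : ∀ e : Pt (RatFunc C) (F0 C) K, ∃ z : Res (RatFunc C) (F0 C) K e, z ^ p = toRes e f) :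
    PowIn (RatFunc C) (F0 C) p f := by
  classical
  haveI : Finite (Pt (RatFunc C) (F0 C) K) := finite_pt
  haveI : IsReduced (F0 C ⊗[RatFunc C] K) := isReduced_tensor
  choose z hz using h
  choose y hy using fun e => Ideal.Quotient.mk_surjective (z e)
  have hcop : Pairwise (Function.onFun IsCoprime
      fun e : Pt (RatFunc C) (F0 C) K => e.asIdeal) := by
    intro e e' hee
    have h1 := isMaximal_pt e
    have h2 := isMaximal_pt e'
    exact Ideal.isCoprime_of_isMaximal fun h => hee (PrimeSpectrum.ext h)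
  obtain ⟨r, hr⟩ := Ideal.exists_forall_sub_mem_ideal hcop y
  refine ⟨r, ?_⟩
  rw [← sub_eq_zero]
  have hmem : r ^ p - (1 : F0 C) ⊗ₜ[RatFunc C] f ∈ nilradical (F0 C ⊗[RatFunc C] K) := by
    rw [nilradical_eq_sInf, Ideal.mem_sInf]
    intro I hI
    have hI' : I.IsPrime := hI
    have := hr ⟨I, hI'⟩
    rw [← Ideal.Quotient.eq_zero_iff_mem, map_sub, map_pow]
    have h3 : Ideal.Quotient.mk I r = z ⟨I, hI'⟩ := by
      rw [← hy ⟨I, hI'⟩]
      exact Ideal.Quotient.eq.2 this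
    rw [h3]
    exact sub_eq_zero.2 (hz ⟨I, hI'⟩)
  rwa [nilradical_eq_zero, Ideal.zero_eq_bot, Ideal.mem_bot] at hmem

theorem powIn_of_spl {p : ℕ} (hp : p.Prime) (hpC : ‖(p : C)‖ < 1) {f : K}
    (hf : Spl (C := C) p (algebraMap (RatFunc C) K RatFunc.X) f) :
    PowIn (RatFunc C) (F0 C) p f :=
  powIn_of_res fun e => exists_root_res hp hpC hf e

theorem spl_of_powIn {p : ℕ} (hp : p.Prime) {f : K} (hf : f ≠ 0)
    (h : PowIn (RatFunc C) (F0 C) p f) :
    Spl (C := C) p (algebraMap (RatFunc C) K RatFunc.X) f := by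
  intro w hw
  obtain ⟨a, ha⟩ := h
  obtain ⟨Ψ, hΨ⟩ := exists_psi hw
  have hz : (Ψ a) ^ p = iK w f := by rw [← map_pow, ha, hΨ]
  have hp0 : (p : C) ≠ 0 := Nat.cast_ne_zero.2 hp.ne_zero
  have hpn : 0 < ‖(p : C)‖ := norm_pos_iff.2 hp0
  have hp1 : ‖(p : C)‖ ≤ 1 := IsUltrametricDist.norm_natCast_le_one C p
  obtain ⟨y, hy, hlt⟩ := exists_near_of_root w hf hp.ne_zero hz (ε := ‖(p : C)‖ ^ p)
    (pow_pos hpn p)
  refine ⟨y, hy, ?_⟩
  have h1 : w (f / y ^ p - 1) ≤ 1 := hlt.le.trans (pow_le_one₀ hpn.le hp1)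
  have h2 : p - 1 ≠ 0 := by have := hp.two_le; omega
  exact (pow_le_of_le_one (w.av.nonneg _) h1 h2).trans_lt hlt

theorem spl_iff {p : ℕ} (hp : p.Prime) (hpC : ‖(p : C)‖ < 1) {f : K} (hf : f ≠ 0) :
    Spl (C := C) p (algebraMap (RatFunc C) K RatFunc.X) f ↔ PowIn (RatFunc C) (F0 C) p f :=
  ⟨powIn_of_spl hp hpC, spl_of_powIn hp hf⟩

/-! ### windings -/

theorem dvd_wind {p : ℕ} (hp : p.Prime) (hpC : ‖(p : C)‖ < 1) {f : K} (hf : f ≠ 0)
    (hw : ∀ w : NV C K, w.OverG (algebraMap (RatFunc C) K RatFunc.X) → NearW p w f)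
    (e : Pt (RatFunc C) (F0 C) K) :
    (p : ℤ) ∣ wind C (Algebra.norm (F0 C)
      (Ideal.Quotient.mk e.asIdeal ((1 : F0 C) ⊗ₜ[RatFunc C] f))) := by
  letI := fieldRes e
  haveI := finite_Res e
  obtain ⟨y, hy, h⟩ := hw (nvOf (toRes e) (toRes_algebraMap e)) (nvOf_overG _ _)
  have hlt : nvOf (toRes e) (toRes_algebraMap e) (f / y ^ p - 1) < 1 := by
    by_contra hcon
    push Not at hcon
    have h1 := one_le_pow₀ hcon (n := p - 1)
    have h2 : ‖(p : C)‖ ^ p < 1 := pow_lt_one₀ (norm_nonneg _) hpC hp.ne_zero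
    linarith
  rw [nvOf_apply, map_sub, map_one] at hlt
  have h2 := norm_norm_sub_one_lt hlt
  set u : Res (RatFunc C) (F0 C) K e := toRes e (f / y ^ p) with hu
  have e1 : Ideal.Quotient.mk e.asIdeal ((1 : F0 C) ⊗ₜ[RatFunc C] f) = toRes e y ^ p * u := by
    rw [← toRes_apply, hu, ← map_pow, ← map_mul, mul_div_cancel₀ _ (pow_ne_zero _ hy)]
  have hy0 : toRes e y ≠ 0 := by rwa [Ne, map_eq_zero]
  have hu0 : u ≠ 0 := by
    rw [hu, Ne, map_eq_zero]
    exact div_ne_zero hf (pow_ne_zero _ hy)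
  have hny : Algebra.norm (F0 C) (toRes e y) ≠ 0 := Algebra.norm_ne_zero_iff.2 hy0
  have hnu : Algebra.norm (F0 C) u ≠ 0 := Algebra.norm_ne_zero_iff.2 hu0
  rw [e1, map_mul, map_pow, wind_mul (pow_ne_zero _ hny) hnu]
  have h3 : wind C (Algebra.norm (F0 C) u) = 0 := by
    have := wind_one_add h2
    rwa [add_sub_cancel] at this
  have h4 : ∀ n : ℕ, wind C (Algebra.norm (F0 C) (toRes e y) ^ n) =
      n * wind C (Algebra.norm (F0 C) (toRes e y)) := by
    intro n
    induction n with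
    | zero => simp
    | succ n ih => rw [pow_succ, wind_mul (pow_ne_zero _ hny) hny, ih]; push_cast; ring
  rw [h3, h4, add_zero]
  exact dvd_mul_right _ _

end

end

end P025H621
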