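import Vale.Agent.P025.R2.H621.Sides
import Vale.Agent.P025.R2.H725.OneVertex

/-!
# `(⇒)` of the pointwise dictionary (5.6) (helper621)
-/

open Polynomial TensorProduct

universe u

namespace P025H621

open Vale.Agent.P019P P025H373 P025H725

variable {C K : Type u} [NontriviallyNormedField C] [IsUltrametricDist C] [CompleteSpace C]
  [IsAlgClosed C] [Field K] [Algebra C K] [CFF C K] [Algebra (RatFunc C) K]
  [IsScalarTower C (RatFunc C) K] [FiniteDimensional (RatFunc C) K]

theorem dict1_to {n : ℕ} (hn : (n : C) ≠ 0) {f : K} (hf : f ≠ 0)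
    (h : PowIn (RatFunc C) (F1 C) n f) {ε : ℝ} (hε : 0 < ε) :
    PowOn n ε (Inn (C := C) (algebraMap (RatFunc C) K RatFunc.X)) f :=
  isSide1.powOn (by rintro rfl; simp at hn) hf h hε

theorem dict2_to {n : ℕ} (hn : (n : C) ≠ 0) {f : K} (hf : f ≠ 0)
    (h : PowIn (RatFunc C) (F2 C) n f) {ε : ℝ} (hε : 0 < ε) :
    PowOn n ε (Inn (C := C) (algebraMap (RatFunc C) K RatFunc.X))ᶜ f :=
  isSide2.powOn (by rintro rfl; simp at hn) hf h hε

end P025H621
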