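import Mathlib

/-!
# Integral approximation of roots: pure algebra (helper621)

`F ⊆ E` fields, `K/F` finite, `R ⊆ E` a subring.
-/

open Polynomial TensorProduct

namespace P025H621

section coeffs

theorem isIntegral_coeff_prod {R S : Type*} [CommRing R] [CommRing S] [Algebra R S]
    (m : Multiset S) (h : ∀ x ∈ m, IsIntegral R x) (n : ℕ) :
    IsIntegral R ((m.map fun x => X - C x).prod.coeff n) := by
  induction m using Multiset.induction_on generalizing n with
  | empty =>
    rw [Multiset.map_zero, Multiset.prod_zero, coeff_one]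
    split_ifs
    · exact isIntegral_one
    · exact isIntegral_zero
  | cons a m ih =>
    have ih' := ih fun x hx => h x (Multiset.mem_cons_of_mem hx)
    have ha := h a (Multiset.mem_cons_self a m)
    rw [Multiset.map_cons, Multiset.prod_cons, sub_mul, coeff_sub, coeff_C_mul]
    refine IsIntegral.sub ?_ (ha.mul (ih' n))
    cases n with
    | zero => simpa using isIntegral_zero
    | succ n => rw [coeff_X_mul]; exact ih' n

variable {F E K : Type*} [Field F] [Field E] [Field K] [Algebra F E] [Algebra F K]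
  [Algebra.IsAlgebraic F K] (R : Subring E)

/-- if `1 ⊗ k` is integral over `R ⊆ E`, then the coefficients of the minimal polynomial of `k`
over `F` are integral over `R`. -/
theorem isIntegral_minpoly_coeff {k : K} (hk : IsIntegral R ((1 : E) ⊗ₜ[F] k)) (n : ℕ) :
    IsIntegral R (algebraMap F E ((minpoly F k).coeff n)) := by
  let Ω := AlgebraicClosure E
  have hsplit : ((minpoly F k).map (algebraMap F Ω)).Splits := IsAlgClosed.splits _
  have hroot : ∀ ρ ∈ ((minpoly F k).map (algebraMap F Ω)).roots, IsIntegral R ρ := by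
    intro ρ hρ
    have h1 : ρ ∈ (minpoly F k).rootSet Ω := by
      rw [mem_rootSet_of_ne (minpoly.ne_zero (Algebra.IsIntegral.isIntegral k))]
      rw [mem_roots', IsRoot.def, eval_map_algebraMap] at hρ
      exact hρ.2
    rw [← Algebra.IsAlgebraic.range_eval_eq_rootSet_minpoly Ω k] at h1
    obtain ⟨σ, rfl⟩ := h1
    let Φ : E ⊗[F] K →ₐ[E] Ω := Algebra.TensorProduct.lift (Algebra.ofId E Ω) σ
      (fun _ _ => Commute.all _ _)
    have h2 : Φ ((1 : E) ⊗ₜ[F] k) = σ k := by
      simp [Φ]
    change IsIntegral R (σ k)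
    rw [← h2]
    exact hk.map (Φ.restrictScalars R)
  have hmap : (minpoly F k).map (algebraMap F Ω) =
      (((minpoly F k).map (algebraMap F Ω)).roots.map fun x => X - C x).prod :=
    hsplit.eq_prod_roots_of_monic ((minpoly.monic (Algebra.IsIntegral.isIntegral k)).map _)
  have h3 := isIntegral_coeff_prod (R := R) _ hroot n
  rw [← hmap, coeff_map] at h3
  rw [IsScalarTower.algebraMap_apply F E Ω] at h3
  exact (isIntegral_algebraMap_iff (algebraMap E Ω).injective).1 h3

end coeffs

section approx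

variable {F E K : Type*} [Field F] [Field E] [Field K] [Algebra F E] [Algebra F K]
  [FiniteDimensional F K] (R : Subring E)

/-- a basis of `K/F` integral over `R`. -/
theorem exists_integral_basis
    (f2 : ∀ y : E, ∃ q : F, q ≠ 0 ∧ algebraMap F E q ∈ R ∧ algebraMap F E q * y ∈ R) :
    ∃ b : Module.Basis (Fin (Module.finrank F K)) F K,
      ∀ j, IsIntegral R ((1 : E) ⊗ₜ[F] b j) := by
  classical
  let b := Module.finBasis F K
  let R' : Subring F := R.comap (algebraMap F E)
  -- `K` is algebraic over `R'`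
  have hfrac : ∀ x : F, IsAlgebraic R' x := by
    intro x
    obtain ⟨q, hq, hqR, hqx⟩ := f2 (algebraMap F E x)
    have hqx' : q * x ∈ R' := by
      change algebraMap F E (q * x) ∈ R
      rwa [map_mul]
    refine ⟨C (⟨q, hqR⟩ : R') * X - C (⟨q * x, hqx'⟩ : R'), ?_, ?_⟩
    · intro h
      have := congrArg (fun p => p.coeff 1) h
      simp at this
      exact hq (congrArg Subtype.val this)
    · rw [map_sub, map_mul, aeval_C, aeval_X, aeval_C]
      exact sub_self _
  have hFalg : Algebra.IsAlgebraic R' F := ⟨hfrac⟩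
  have hKalg : Algebra.IsAlgebraic R' K := Algebra.IsAlgebraic.trans R' F K
  choose y hy hyint using fun j => (hKalg.isAlgebraic (b j)).exists_integral_multiple
  have hy' : ∀ j, (y j : F) ≠ 0 := fun j h => hy j (Subtype.ext h)
  refine ⟨b.unitsSMul fun j => Units.mk0 (y j : F) (hy' j), fun j => ?_⟩
  have h1 : b.unitsSMul (fun j => Units.mk0 (y j : F) (hy' j)) j = (y j : F) • b j := by
    rw [Module.Basis.unitsSMul_apply]
    rfl
  rw [h1]
  have h2 := hyint j
  -- transport along `K → E ⊗ K`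
  let φ : R' →+* R := (algebraMap F E).restrict R' R fun x hx => hx
  refine IsIntegral.map_of_comp_eq φ
    (Algebra.TensorProduct.includeRight : K →ₐ[F] E ⊗[F] K).toRingHom ?_ h2
  ext r
  change algebraMap R (E ⊗[F] K) (φ r) = (1 : E) ⊗ₜ[F] (algebraMap R' K r)
  have h3 : algebraMap R' K r = algebraMap F K (r : F) := rfl
  rw [h3, ← Algebra.TensorProduct.tmul_one_eq_one_tmul]
  rfl

/-- approximation of an `n`-th root `z ∈ E ⊗ K` of `f ∈ K`. -/
theorem exists_approx_root
    (f1 : ∀ (y : E) (u : F), u ≠ 0 → ∃ r : F, ∃ a ∈ R, y = algebraMap F E r + algebraMap F E u * a)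
    (f2 : ∀ y : E, ∃ q : F, q ≠ 0 ∧ algebraMap F E q ∈ R ∧ algebraMap F E q * y ∈ R)
    {n : ℕ} (hn : n ≠ 0) {f : K} (hf : f ≠ 0) {z : E ⊗[F] K} (hz : z ^ n = (1 : E) ⊗ₜ[F] f)
    {s : F} (hs : s ≠ 0) (hsR : algebraMap F E s ∈ R) (hs' : ¬ IsIntegral R (algebraMap F E s⁻¹)) :
    ∃ g k : K, g ≠ 0 ∧ f / g ^ n = 1 + algebraMap F K s * k ∧
      IsIntegral R ((1 : E) ⊗ₜ[F] k) := by
  classical
  obtain ⟨b, hb⟩ := exists_integral_basis (K := K) R f2
  -- `z` is a unit
  have hzu : IsUnit z := by
    have h1 : IsUnit (z ^ n) := by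
      rw [hz]
      exact (IsUnit.mk0 f hf).map (Algebra.TensorProduct.includeRight : K →ₐ[F] E ⊗[F] K)
    exact (isUnit_pow_iff hn).1 h1
  obtain ⟨z', hz'⟩ := hzu.exists_right_inv
  let B : Module.Basis (Fin (Module.finrank F K)) E (E ⊗[F] K) := Algebra.TensorProduct.basis E b
  have hB : ∀ j, B j = (1 : E) ⊗ₜ[F] b j := fun j => Algebra.TensorProduct.basis_apply b j
  have hexp : ∀ x : E ⊗[F] K, x = ∑ j, B.repr x j • B j := fun x => (B.sum_repr x).symm
  -- elements with coordinates in `R` are integral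
  have hR : ∀ a : Fin (Module.finrank F K) → E, (∀ j, a j ∈ R) →
      IsIntegral R (∑ j, a j • B j) := by
    intro a ha
    refine IsIntegral.sum _ fun j _ => ?_
    rw [hB]
    have : a j • ((1 : E) ⊗ₜ[F] b j) = (⟨a j, ha j⟩ : R) • ((1 : E) ⊗ₜ[F] b j) := rfl
    rw [this]
    exact (hb j).smul _
  -- common denominator of `z`
  choose q hq0 hqR hqy using fun j => f2 (B.repr z j)
  set Q : F := ∏ j, q j with hQ
  have hQ0 : Q ≠ 0 := Finset.prod_ne_zero_iff.2 fun j _ => hq0 j
  have hQR : algebraMap F E Q ∈ R := by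
    rw [hQ, map_prod]
    exact Subring.prod_mem _ fun j _ => hqR j
  have hQz : IsIntegral R (algebraMap F E Q • z) := by
    rw [hexp z, Finset.smul_sum]
    simp only [smul_smul]
    refine hR _ fun j => ?_
    rw [hQ, map_prod, ← Finset.prod_erase_mul _ _ (Finset.mem_univ j), mul_assoc]
    exact mul_mem (Subring.prod_mem _ fun i _ => hqR i) (hqy j)
  -- approximate `z'`
  have hsQ : s * Q ≠ 0 := mul_ne_zero hs hQ0
  choose r a ha hra using fun j => f1 (B.repr z' j) (s * Q) hsQ
  set g : K := ∑ j, r j • b j with hg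
  have hg1 : (1 : E) ⊗ₜ[F] g = z' - algebraMap F E (s * Q) • ∑ j, a j • B j := by
    have h1 : (1 : E) ⊗ₜ[F] g = ∑ j, algebraMap F E (r j) • B j := by
      rw [hg, TensorProduct.tmul_sum]
      refine Finset.sum_congr rfl fun j _ => ?_
      rw [TensorProduct.tmul_smul, hB, algebraMap_smul]
    rw [h1, eq_sub_iff_add_eq, Finset.smul_sum, ← Finset.sum_add_distrib]
    conv_rhs => rw [hexp z']
    refine Finset.sum_congr rfl fun j _ => ?_
    rw [smul_smul, ← add_smul, ← hra]
  set y : E ⊗[F] K := ∑ j, a j • B j with hy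
  have hyint : IsIntegral R y := hR a ha
  set w : E ⊗[F] K := (algebraMap F E Q • z) * y with hw
  have hwint : IsIntegral R w := hQz.mul hyint
  have hzg : z * ((1 : E) ⊗ₜ[F] g) = 1 - algebraMap F E s • w := by
    rw [hg1, mul_sub, hz', hw, map_mul, mul_smul, smul_mul_assoc, mul_smul_comm, mul_smul_comm]
  -- `n`-th power
  have hpow : ∀ m : ℕ, ∃ v : E ⊗[F] K, IsIntegral R v ∧
      (1 - algebraMap F E s • w) ^ m = 1 + algebraMap F E s • v := by
    intro m
    induction m with
    | zero => exact ⟨0, isIntegral_zero, by simp⟩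
    | succ m ih =>
      obtain ⟨v, hv, he⟩ := ih
      refine ⟨v - w - algebraMap F E s • (v * w), ?_, ?_⟩
      · refine (hv.sub hwint).sub ?_
        have : algebraMap F E s • (v * w) = (⟨algebraMap F E s, hsR⟩ : R) • (v * w) := rfl
        rw [this]
        exact (hv.mul hwint).smul _
      · rw [pow_succ, he, smul_sub, smul_sub, smul_smul]
        rw [add_mul, one_mul, mul_sub, mul_one, smul_mul_assoc, mul_smul_comm, smul_smul]
        abel
  obtain ⟨v, hv, he⟩ := hpow n
  rw [← hzg, mul_pow, hz, Algebra.TensorProduct.tmul_pow, one_pow,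
    Algebra.TensorProduct.tmul_mul_tmul, one_mul] at he
  set k : K := s⁻¹ • (f * g ^ n - 1) with hk
  have hk1 : (1 : E) ⊗ₜ[F] k = v := by
    rw [hk, TensorProduct.tmul_smul, TensorProduct.tmul_sub, he, ← Algebra.TensorProduct.one_def,
      add_sub_cancel_left, ← algebraMap_smul E s⁻¹, smul_smul, ← map_mul, inv_mul_cancel₀ hs,
      map_one, one_smul]
  have hkint : IsIntegral R ((1 : E) ⊗ₜ[F] k) := by rw [hk1]; exact hv
  have hfk : f * g ^ n = 1 + algebraMap F K s * k := by
    rw [hk, ← Algebra.smul_def, smul_smul, mul_inv_cancel₀ hs, one_smul]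
    ring
  have hg0 : g ≠ 0 := by
    intro hg0
    apply hs'
    rw [hg0, zero_pow hn, mul_zero] at hfk
    have hk2 : k = algebraMap F K (-s⁻¹) := by
      rw [hk, hg0, zero_pow hn, mul_zero, zero_sub, Algebra.smul_def, map_neg]
      ring
    have h1 : (1 : E) ⊗ₜ[F] k = algebraMap E (E ⊗[F] K) (algebraMap F E (-s⁻¹)) := by
      rw [hk2, ← Algebra.TensorProduct.tmul_one_eq_one_tmul]
      rfl
    rw [h1] at hkint
    have h2 := (isIntegral_algebraMap_iff (algebraMap E (E ⊗[F] K)).injective).1 hkint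
    have h3 := h2.neg
    rwa [← map_neg, neg_neg] at h3
  refine ⟨g⁻¹, k, inv_ne_zero hg0, ?_, hkint⟩
  rw [inv_pow, div_inv_eq_mul, hfk]

end approx

end P025H621
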