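import Vale.Agent.P025.R2.H621.Defs
import Vale.Agent.P025.R2.H621.Side0
import Vale.Agent.P025.R2.H621.Root
import Vale.Agent.P025.R2.H373.Gauss5

/-!
# The two sides: integral elements over the unit balls of `A1`, `A2` and their values at places
(helper621)
-/

open Polynomial TensorProduct

universe u

set_option linter.unusedSectionVars false
set_option linter.style.haveILetI false

namespace P025H621

open Vale.Agent.P019P P025H373

noncomputable section

/-! ## values at places -/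

section Val

variable {C K : Type u} [Field C] [Field K] [Algebra C K] [CFF C K]

/-- `z` has the value `c` at `P`. -/
def IsVal (P : Plk C K) (z : K) (c : C) : Prop := z - algebraMap C K c ∈ Mge P 1

variable {P : Plk C K}

theorem const_mem (c : C) : algebraMap C K c ∈ Mge P 0 := by
  by_cases hc : c = 0
  · rw [hc, map_zero]; exact Submodule.zero_mem _
  · exact Or.inr (by rw [ord_const])

theorem IsVal.mem {z : K} {c : C} (h : IsVal P z c) : z ∈ Mge P 0 := by
  have h1 : z = (z - algebraMap C K c) + algebraMap C K c := by ring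
  rw [h1]
  exact Submodule.add_mem _ (Mge_mono P zero_le_one h) (const_mem c)

theorem exists_isVal {z : K} (h : z ∈ Mge P 0) : ∃ c, IsVal P z c := by
  obtain ⟨c, hc⟩ := exists_cst P ((mem_iff_ord P z).2 h)
  refine ⟨c, ?_⟩
  rcases hc with hc | hc
  · left; rw [hc, sub_self]
  · right; omega

theorem isVal_const (c : C) : IsVal P (algebraMap C K c) c := by
  left; rw [sub_self]

theorem IsVal.add {z w : K} {c d : C} (h : IsVal P z c) (h' : IsVal P w d) :
    IsVal P (z + w) (c + d) := by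
  have e : z + w - algebraMap C K (c + d) = (z - algebraMap C K c) + (w - algebraMap C K d) := by
    rw [map_add]; ring
  unfold IsVal
  rw [e]
  exact Submodule.add_mem _ h h'

theorem IsVal.mul {z w : K} {c d : C} (h : IsVal P z c) (h' : IsVal P w d) :
    IsVal P (z * w) (c * d) := by
  have e : z * w - algebraMap C K (c * d) =
      z * (w - algebraMap C K d) + algebraMap C K d * (z - algebraMap C K c) := by
    rw [map_mul]; ring
  unfold IsVal
  rw [e]
  refine Submodule.add_mem _ ?_ ?_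
  · have := mul_mem_Mge h.mem h'
    rwa [zero_add] at this
  · have := mul_mem_Mge (const_mem (P := P) d) h
    rwa [zero_add] at this

theorem IsVal.pow {z : K} {c : C} (h : IsVal P z c) (n : ℕ) : IsVal P (z ^ n) (c ^ n) := by
  induction n with
  | zero => simpa using isVal_const (P := P) (1 : C)
  | succ n ih => rw [pow_succ, pow_succ]; exact ih.mul h

theorem IsVal.sum {ι : Type*} (s : Finset ι) {z : ι → K} {c : ι → C}
    (h : ∀ i ∈ s, IsVal P (z i) (c i)) : IsVal P (∑ i ∈ s, z i) (∑ i ∈ s, c i) := by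
  classical
  induction s using Finset.induction_on with
  | empty => simpa using isVal_const (P := P) (0 : C)
  | insert i s hi ih =>
    rw [Finset.sum_insert hi, Finset.sum_insert hi]
    exact (h i (Finset.mem_insert_self _ _)).add
      (ih fun j hj => h j (Finset.mem_insert_of_mem hj))

theorem IsVal.unique {z : K} {c d : C} (h : IsVal P z c) (h' : IsVal P z d) : c = d := by
  by_contra hcd
  have h1 : algebraMap C K (c - d) ∈ Mge P 1 := by
    have e : algebraMap C K (c - d) = (z - algebraMap C K d) - (z - algebraMap C K c) := by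
      rw [map_sub]; ring
    rw [e]
    exact Submodule.sub_mem _ h' h
  rcases h1 with h1 | h1
  · rw [map_eq_zero, sub_eq_zero] at h1
    exact hcd h1
  · rw [ord_const] at h1
    omega

theorem isVal_zero_iff {z : K} : IsVal P z 0 ↔ z ∈ Mge P 1 := by
  unfold IsVal; rw [map_zero, sub_zero]

/-- values of quotients -/
theorem IsVal.div {z w : K} {c d : C} (h : IsVal P z c) (h' : IsVal P w d) (hd : d ≠ 0) :
    IsVal P (z / w) (c / d) := by
  have hw0 : w ≠ 0 := by
    rintro rfl
    exact hd ((h'.unique (by simpa using isVal_const (P := P) (0 : C))))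
  have hwo : ord P w = 0 := by
    have h1 := h'.mem.resolve_left hw0
    by_contra hne
    exact hd (h'.unique (isVal_zero_iff.2 (Or.inr (by omega))))
  have hwi : w⁻¹ ∈ Mge P 0 := Or.inr (by rw [ord_inv, hwo, neg_zero])
  obtain ⟨e, he⟩ := exists_isVal hwi
  have h2 : IsVal P (1 : K) (e * d) := by
    have := he.mul h'
    rwa [inv_mul_cancel₀ hw0] at this
  have h3 : e * d = 1 := h2.unique (by simpa using isVal_const (P := P) (1 : C))
  have h4 : e = d⁻¹ := eq_inv_of_mul_eq_one_left h3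
  rw [div_eq_mul_inv, div_eq_mul_inv, ← h4]
  exact h.mul he

end Val

section Ball

variable {C K : Type u} [NormedField C] [Field K] [Algebra C K] [CFF C K]

theorem inBall_iff {P : Plk C K} {z : K} {a : C} {r : ℝ} :
    InBall P z a r ↔ ∃ c, ‖c - a‖ ≤ r ∧ IsVal P z c := Iff.rfl

theorem inBall_zero_iff {P : Plk C K} {z : K} {r : ℝ} :
    InBall P z 0 r ↔ ∃ c, ‖c‖ ≤ r ∧ IsVal P z c := by
  rw [inBall_iff]; simp

end Ball

section Bound

variable {C K : Type u} [NormedField C] [IsUltrametricDist C] [IsAlgClosed C] [Field K]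
  [Algebra C K] [CFF C K] [Algebra (RatFunc C) K] [IsScalarTower C (RatFunc C) K]

/-- a monic equation with bounded coefficients -/
theorem norm_le_one_of_root {M : Type*} [NormedField M] [IsUltrametricDist M] {n : ℕ}
    {a : ℕ → M} {x : M} (ha : ∀ i < n, ‖a i‖ ≤ 1) (h : x ^ n + ∑ i ∈ Finset.range n, a i * x ^ i = 0)
    : ‖x‖ ≤ 1 := by
  by_contra hx
  push Not at hx
  rcases Nat.eq_zero_or_pos n with rfl | hn
  · simp at h
  have h1 : ‖∑ i ∈ Finset.range n, a i * x ^ i‖ ≤ ‖x‖ ^ (n - 1) := by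
    refine norm_sum_le_of_forall _ _ (by positivity) fun i hi => ?_
    rw [Finset.mem_range] at hi
    rw [norm_mul, norm_pow]
    calc ‖a i‖ * ‖x‖ ^ i ≤ 1 * ‖x‖ ^ i := by gcongr; exact ha i hi
      _ = ‖x‖ ^ i := one_mul _
      _ ≤ ‖x‖ ^ (n - 1) := pow_le_pow_right₀ hx.le (by omega)
  have h2 : ‖x‖ ^ n ≤ ‖x‖ ^ (n - 1) := by
    rw [← norm_pow, eq_neg_of_add_eq_zero_left h, norm_neg]
    exact h1
  have h3 : ‖x‖ ^ (n - 1) < ‖x‖ ^ n := pow_lt_pow_right₀ hx (by omega)
  exact absurd h2 (not_le.2 h3)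

variable {E : Type u} [Field E] [Algebra (RatFunc C) E] [Algebra E (F0 C)]
  [IsScalarTower (RatFunc C) E (F0 C)]

/-- unit ball of `A` in the field `E ⊆ F0` -/
def ball (A : Subalgebra C (F0 C)) (E : Type u) [Field E] [Algebra E (F0 C)] : Subring E where
  carrier := {x | algebraMap E (F0 C) x ∈ A ∧ ‖algebraMap E (F0 C) x‖ ≤ 1}
  mul_mem' := by
    rintro a b ⟨ha, ha1⟩ ⟨hb, hb1⟩
    refine ⟨?_, ?_⟩
    · rw [map_mul]; exact mul_mem ha hb
    · rw [map_mul, norm_mul]
      exact mul_le_one₀ ha1 (norm_nonneg _) hb1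
  one_mem' := ⟨by rw [map_one]; exact one_mem _, by simp⟩
  add_mem' := by
    rintro a b ⟨ha, ha1⟩ ⟨hb, hb1⟩
    refine ⟨?_, ?_⟩
    · rw [map_add]; exact add_mem ha hb
    · rw [map_add]
      exact (IsUltrametricDist.norm_add_le_max _ _).trans (max_le ha1 hb1)
  zero_mem' := ⟨by rw [map_zero]; exact zero_mem _, by simp⟩
  neg_mem' := by
    rintro a ⟨ha, ha1⟩
    refine ⟨?_, ?_⟩
    · rw [map_neg]; exact neg_mem ha
    · rw [map_neg, norm_neg]; exact ha1

theorem mem_ball {A : Subalgebra C (F0 C)} {x : E} :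
    x ∈ ball A E ↔ algebraMap E (F0 C) x ∈ A ∧ ‖algebraMap E (F0 C) x‖ ≤ 1 := Iff.rfl

/-- the main lemma: the value of a rational function integral over the ball of `A`. -/
theorem inBall_of_integral {A : Subalgebra C (F0 C)}
    (D : Subalgebra C (RatFunc C))
    (hdense : ∀ a ∈ A, ∀ η : ℝ, 0 < η → ∃ d ∈ D, ‖a - algebraMap (RatFunc C) (F0 C) d‖ < η)
    {P : Plk C K} (hD : ∀ d ∈ D, InBall P (algebraMap (RatFunc C) K d) 0 (gauss C d))
    {c : RatFunc C} (hG : ∃ x ∈ D, ∃ y ∈ D, y ≠ 0 ∧ c = x / y ∧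
      ¬ (IsVal P (algebraMap (RatFunc C) K x) 0 ∧ IsVal P (algebraMap (RatFunc C) K y) 0))
    (hc : IsIntegral (ball A E) (algebraMap (RatFunc C) E c)) :
    InBall P (algebraMap (RatFunc C) K c) 0 1 := by
  obtain ⟨x, hx, y, hy, hy0, hcxy, hxy⟩ := hG
  obtain ⟨q, hq, hq0⟩ := hc
  set n := q.natDegree with hn
  -- the equation in `F0`
  set r : ℕ → F0 C := fun i => algebraMap E (F0 C) (q.coeff i : E) with hr
  have hrA : ∀ i, r i ∈ A := fun i => (q.coeff i).2.1
  have hr1 : ∀ i, ‖r i‖ ≤ 1 := fun i => (q.coeff i).2.2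
  set ι := algebraMap (RatFunc C) (F0 C) with hι
  have heq : ι c ^ n + ∑ i ∈ Finset.range n, r i * ι c ^ i = 0 := by
    have h1 := congrArg (algebraMap E (F0 C)) hq0
    rw [map_zero, hom_eval₂, eval₂_eq_sum_range, Finset.sum_range_succ, ← hn] at h1
    have hlead : q.coeff n = 1 := hq
    rw [hlead, map_one, one_mul, add_comm, ← IsScalarTower.algebraMap_apply] at h1
    exact h1
  have hy' : ι y ≠ 0 := by rwa [Ne, map_eq_zero]
  have heq2 : ι x ^ n + ∑ i ∈ Finset.range n, r i * (ι x ^ i * ι y ^ (n - i)) = 0 := by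
    have h1 : ι c * ι y = ι x := by rw [← map_mul, hcxy, div_mul_cancel₀ _ hy0]
    have h2 : ι x ^ n + ∑ i ∈ Finset.range n, r i * (ι x ^ i * ι y ^ (n - i)) =
        (ι c ^ n + ∑ i ∈ Finset.range n, r i * ι c ^ i) * ι y ^ n := by
      rw [add_mul, Finset.sum_mul, ← mul_pow, h1]
      congr 1
      refine Finset.sum_congr rfl fun i hi => ?_
      rw [Finset.mem_range] at hi
      have : ι y ^ n = ι y ^ i * ι y ^ (n - i) := by rw [← pow_add]; congr 1; omega
      rw [this, ← h1, mul_pow]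
      ring
    rw [h2, heq, zero_mul]
  have hn0 : n ≠ 0 := by
    intro h0
    rw [h0] at heq
    simp at heq
  -- values of `x`, `y`
  obtain ⟨X0, hX1, hX⟩ := inBall_zero_iff.1 (hD x hx)
  obtain ⟨Y0, hY1, hY⟩ := inBall_zero_iff.1 (hD y hy)
  set M : ℝ := (max 1 (max ‖ι x‖ ‖ι y‖)) ^ n with hM
  have hM1 : 1 ≤ M := one_le_pow₀ (le_max_left _ _)
  -- approximation
  have key : ∀ η : ℝ, 0 < η → η ≤ 1 → ∃ δ : ℕ → C, (∀ i, ‖δ i‖ ≤ 1) ∧
      ‖X0 ^ n + ∑ i ∈ Finset.range n, δ i * (X0 ^ i * Y0 ^ (n - i))‖ ≤ η * M := by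
    intro η hη hη1
    choose d hd hdr using fun i => hdense (r i) (hrA i) η hη
    have hd1 : ∀ i, gauss C (d i) ≤ 1 := by
      intro i
      rw [← P025H373.norm_algebraMap]
      have e : algebraMap (RatFunc C) (F0 C) (d i) = r i + -(r i - ι (d i)) := by ring
      rw [e]
      refine (IsUltrametricDist.norm_add_le_max _ _).trans (max_le (hr1 i) ?_)
      rw [norm_neg]
      exact (hdr i).le.trans hη1
    choose δ hδ1 hδ using fun i => inBall_zero_iff.1 (hD (d i) (hd i))
    refine ⟨δ, fun i => (hδ1 i).trans (hd1 i), ?_⟩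
    set e : RatFunc C := x ^ n + ∑ i ∈ Finset.range n, d i * (x ^ i * y ^ (n - i)) with he
    have heD : e ∈ D := by
      refine add_mem (pow_mem hx _) (sum_mem fun i _ => mul_mem (hd i)
        (mul_mem (pow_mem hx _) (pow_mem hy _)))
    have heval : IsVal P (algebraMap (RatFunc C) K e)
        (X0 ^ n + ∑ i ∈ Finset.range n, δ i * (X0 ^ i * Y0 ^ (n - i))) := by
      rw [he, map_add, map_pow, map_sum]
      refine (hX.pow n).add (IsVal.sum _ fun i _ => ?_)
      rw [map_mul, map_mul, map_pow, map_pow]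
      exact (hδ i).mul ((hX.pow _).mul (hY.pow _))
    have hnorm : gauss C e ≤ η * M := by
      rw [← P025H373.norm_algebraMap]
      have e1 : algebraMap (RatFunc C) (F0 C) e =
          ∑ i ∈ Finset.range n, -(r i - ι (d i)) * (ι x ^ i * ι y ^ (n - i)) := by
        have e2 : algebraMap (RatFunc C) (F0 C) e = algebraMap (RatFunc C) (F0 C) e -
            (ι x ^ n + ∑ i ∈ Finset.range n, r i * (ι x ^ i * ι y ^ (n - i))) := by
          rw [heq2, sub_zero]
        rw [e2, he, map_add, map_pow, map_sum, add_sub_add_left_eq_sub, ← Finset.sum_sub_distrib]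
        refine Finset.sum_congr rfl fun i _ => ?_
        rw [map_mul, map_mul, map_pow, map_pow]
        ring
      rw [e1]
      refine norm_sum_le_of_forall _ _ (by positivity) fun i hi => ?_
      rw [Finset.mem_range] at hi
      rw [norm_mul, norm_neg, norm_mul, norm_pow, norm_pow]
      have h3 : ‖ι x‖ ^ i * ‖ι y‖ ^ (n - i) ≤ M := by
        have hmx : ‖ι x‖ ≤ max 1 (max ‖ι x‖ ‖ι y‖) := (le_max_left _ _).trans (le_max_right _ _)
        have hmy : ‖ι y‖ ≤ max 1 (max ‖ι x‖ ‖ι y‖) := (le_max_right _ _).trans (le_max_right _ _)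
        calc ‖ι x‖ ^ i * ‖ι y‖ ^ (n - i)
            ≤ (max 1 (max ‖ι x‖ ‖ι y‖)) ^ i * (max 1 (max ‖ι x‖ ‖ι y‖)) ^ (n - i) := by gcongr
          _ = M := by rw [hM, ← pow_add]; congr 1; omega
      exact mul_le_mul (hdr i).le h3 (by positivity) hη.le
    obtain ⟨e0, he1, he0⟩ := inBall_zero_iff.1 (hD e heD)
    rw [← he0.unique heval]
    exact he1.trans hnorm
  by_cases hY0 : Y0 = 0
  · exfalso
    apply hxy
    rw [hY0] at hY
    refine ⟨?_, hY⟩
    have hX0 : X0 = 0 := by
      by_contra hX0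
      have hpos : 0 < ‖X0‖ ^ n := pow_pos (norm_pos_iff.2 hX0) n
      have hb : ∀ η : ℝ, 0 < η → η ≤ 1 → ‖X0‖ ^ n ≤ η * M := by
        intro η h1 h2
        obtain ⟨δ, -, h3⟩ := key η h1 h2
        have h4 : ∑ i ∈ Finset.range n, δ i * (X0 ^ i * Y0 ^ (n - i)) = 0 := by
          refine Finset.sum_eq_zero fun i hi => ?_
          rw [Finset.mem_range] at hi
          rw [hY0, zero_pow (by omega), mul_zero, mul_zero]
        rwa [h4, add_zero, norm_pow] at h3
      set η : ℝ := min 1 (‖X0‖ ^ n / (2 * M)) with hη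
      have h1 : 0 < η := lt_min one_pos (by positivity)
      have h2 := hb η h1 (min_le_left _ _)
      have h3 : η * M ≤ ‖X0‖ ^ n / 2 := by
        calc η * M ≤ (‖X0‖ ^ n / (2 * M)) * M := by gcongr; exact min_le_right _ _
          _ = ‖X0‖ ^ n / 2 := by field_simp
      linarith
    rwa [hX0] at hX
  · have hc0 : IsVal P (algebraMap (RatFunc C) K c) (X0 / Y0) := by
      rw [hcxy, map_div₀]
      exact hX.div hY hY0
    refine inBall_zero_iff.2 ⟨X0 / Y0, ?_, hc0⟩
    by_contra hcon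
    push Not at hcon
    set z : C := X0 / Y0 with hz
    have hzX : X0 = z * Y0 := by rw [hz, div_mul_cancel₀ _ hY0]
    have hYn : 0 < ‖Y0‖ ^ n := pow_pos (norm_pos_iff.2 hY0) n
    set η : ℝ := min 1 (‖Y0‖ ^ n / (2 * M)) with hη
    have h1 : 0 < η := lt_min one_pos (by positivity)
    obtain ⟨δ, hδ, h2⟩ := key η h1 (min_le_left _ _)
    have h3 : η * M ≤ ‖Y0‖ ^ n / 2 := by
      calc η * M ≤ (‖Y0‖ ^ n / (2 * M)) * M := by gcongr; exact min_le_right _ _
        _ = ‖Y0‖ ^ n / 2 := by field_simp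
    have h4 : X0 ^ n + ∑ i ∈ Finset.range n, δ i * (X0 ^ i * Y0 ^ (n - i)) =
        Y0 ^ n * (z ^ n + ∑ i ∈ Finset.range n, δ i * z ^ i) := by
      rw [mul_add, Finset.mul_sum, hzX, mul_pow, mul_comm (z ^ n)]
      congr 1
      refine Finset.sum_congr rfl fun i hi => ?_
      rw [Finset.mem_range] at hi
      have : Y0 ^ n = Y0 ^ i * Y0 ^ (n - i) := by rw [← pow_add]; congr 1; omega
      rw [this, mul_pow]
      ring
    rw [h4, norm_mul, norm_pow] at h2
    have h5 : ‖z ^ n + ∑ i ∈ Finset.range n, δ i * z ^ i‖ ≤ 1 / 2 := by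
      have := h2.trans h3
      have h6 : ‖Y0‖ ^ n * ‖z ^ n + ∑ i ∈ Finset.range n, δ i * z ^ i‖ ≤ ‖Y0‖ ^ n * (1 / 2) := by
        linarith
      exact le_of_mul_le_mul_left h6 hYn
    have h7 : ‖∑ i ∈ Finset.range n, δ i * z ^ i‖ ≤ ‖z‖ ^ (n - 1) := by
      refine norm_sum_le_of_forall _ _ (by positivity) fun i hi => ?_
      rw [Finset.mem_range] at hi
      rw [norm_mul, norm_pow]
      calc ‖δ i‖ * ‖z‖ ^ i ≤ 1 * ‖z‖ ^ i := by gcongr; exact hδ i
        _ = ‖z‖ ^ i := one_mul _
        _ ≤ ‖z‖ ^ (n - 1) := pow_le_pow_right₀ hcon.le (by omega)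
    have h8 : ‖z‖ ^ (n - 1) < ‖z‖ ^ n := pow_lt_pow_right₀ hcon (by omega)
    have h9 : ‖z ^ n + ∑ i ∈ Finset.range n, δ i * z ^ i‖ = ‖z‖ ^ n := by
      have hlt : ‖∑ i ∈ Finset.range n, δ i * z ^ i‖ < ‖z ^ n‖ := by
        rw [norm_pow]; exact h7.trans_lt h8
      rw [IsUltrametricDist.norm_add_eq_max_of_norm_ne_norm hlt.ne', max_eq_left hlt.le, norm_pow]
    rw [h9] at h5
    have h10 : 1 < ‖z‖ ^ n := one_lt_pow₀ hcon hn0
    linarith

/-- bound for an element of `K` from bounds of the coefficients of its minimal polynomial. -/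
theorem inBall_of_minpoly [FiniteDimensional (RatFunc C) K] {P : Plk C K} {k : K}
    (h : ∀ i, InBall P (algebraMap (RatFunc C) K ((minpoly (RatFunc C) k).coeff i)) 0 1) :
    InBall P k 0 1 := by
  set m := minpoly (RatFunc C) k with hm
  have hmon : m.Monic := minpoly.monic (Algebra.IsIntegral.isIntegral k)
  choose c hc1 hc using fun i => inBall_zero_iff.1 (h i)
  have heq : k ^ m.natDegree + ∑ i ∈ Finset.range m.natDegree,
      algebraMap (RatFunc C) K (m.coeff i) * k ^ i = 0 := by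
    have h1 := minpoly.aeval (RatFunc C) k
    rw [← hm, aeval_eq_sum_range, Finset.sum_range_succ] at h1
    have hlead : m.coeff m.natDegree = 1 := hmon
    rw [hlead, one_smul, add_comm] at h1
    simp only [Algebra.smul_def] at h1
    exact h1
  -- `k` is regular at `P`
  have hk : k ∈ P.1 := by
    have hint : IsIntegral P.1 k := by
      refine ⟨X ^ m.natDegree + ∑ i ∈ Finset.range m.natDegree, Polynomial.C
        (⟨algebraMap (RatFunc C) K (m.coeff i), (mem_iff_ord P _).2 (hc i).mem⟩ : P.1) * X ^ i,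
        ?_, ?_⟩
      · refine monic_X_pow_add ?_
        refine (degree_sum_le _ _).trans_lt ?_
        refine (Finset.sup_lt_iff (WithBot.bot_lt_coe _)).2 fun i hi => ?_
        rw [Finset.mem_range] at hi
        exact (degree_C_mul_X_pow_le _ _).trans_lt (WithBot.coe_lt_coe.2 hi)
      · rw [eval₂_add, eval₂_X_pow, eval₂_finsetSum]
        simp only [eval₂_mul, eval₂_C, eval₂_X_pow]
        exact heq
    obtain ⟨y, hy⟩ := (IsIntegrallyClosed.isIntegral_iff (R := P.1) (K := K)).1 hint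
    rw [← hy]
    exact y.2
  obtain ⟨v, hv⟩ := exists_isVal ((mem_iff_ord P k).1 hk)
  refine inBall_zero_iff.2 ⟨v, ?_, hv⟩
  have h2 : IsVal P (0 : K) (v ^ m.natDegree + ∑ i ∈ Finset.range m.natDegree, c i * v ^ i) := by
    rw [← heq]
    exact (hv.pow _).add (IsVal.sum _ fun i _ => (hc i).mul (hv.pow i))
  have h3 := h2.unique (by simpa using isVal_const (P := P) (0 : C))
  exact norm_le_one_of_root (fun i _ => hc1 i) h3

end Bound

end

end P025H621
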