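import Vale.Agent.P025.R2.H621.Side

/-!
# The two sides: concrete data, and `(⇒)` of the pointwise dictionary (helper621)
-/

open Polynomial TensorProduct

universe u

set_option linter.unusedSectionVars false
set_option linter.style.haveILetI false

namespace P025H621

open Vale.Agent.P019P P025H373

noncomputable section

section gen

variable {C K : Type u} [NontriviallyNormedField C] [IsUltrametricDist C] [IsAlgClosed C]
  [Field K] [Algebra C K] [CFF C K] [Algebra (RatFunc C) K] [IsScalarTower C (RatFunc C) K]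
  [FiniteDimensional (RatFunc C) K]
  {E : Type u} [Field E] [Algebra (RatFunc C) E] [Algebra E (F0 C)]
  [IsScalarTower (RatFunc C) E (F0 C)]

/-- data of one side -/
structure IsSide (A : Subalgebra C (F0 C)) (E : Type u) [Field E] [Algebra (RatFunc C) E]
    [Algebra E (F0 C)] (D : Subalgebra C (RatFunc C)) (U : Set (Plk C K)) : Prop where
  f1 : ∀ (y : E) (u : RatFunc C), u ≠ 0 → ∃ r : RatFunc C, ∃ a ∈ ball A E,
    y = algebraMap (RatFunc C) E r + algebraMap (RatFunc C) E u * a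
  f2 : ∀ y : E, ∃ q : RatFunc C, q ≠ 0 ∧ algebraMap (RatFunc C) E q ∈ ball A E ∧
    algebraMap (RatFunc C) E q * y ∈ ball A E
  dense : ∀ a ∈ A, ∀ η : ℝ, 0 < η → ∃ d ∈ D, ‖a - algebraMap (RatFunc C) (F0 C) d‖ < η
  val : ∀ P ∈ U, ∀ d ∈ D, InBall P (algebraMap (RatFunc C) K d) 0 (gauss C d)
  quot : ∀ P ∈ U, ∀ c : RatFunc C, ∃ x ∈ D, ∃ y ∈ D, y ≠ 0 ∧ c = x / y ∧
      ¬ (IsVal P (algebraMap (RatFunc C) K x) 0 ∧ IsVal P (algebraMap (RatFunc C) K y) 0)

theorem norm_le_one_of_isIntegral {A : Subalgebra C (F0 C)} {x : E}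
    (h : IsIntegral (ball A E) x) : ‖algebraMap E (F0 C) x‖ ≤ 1 := by
  obtain ⟨q, hq, hq0⟩ := h
  have h1 := congrArg (algebraMap E (F0 C)) hq0
  rw [map_zero, hom_eval₂, eval₂_eq_sum_range, Finset.sum_range_succ] at h1
  have hlead : q.coeff q.natDegree = 1 := hq
  rw [hlead, map_one, one_mul, add_comm] at h1
  exact norm_le_one_of_root (a := fun i => algebraMap E (F0 C) (q.coeff i : E))
    (fun i _ => (q.coeff i).2.2) h1

/-- elements of `K` integral over the ball are bounded by `1` on the side. -/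
theorem IsSide.inBall {A : Subalgebra C (F0 C)} {D : Subalgebra C (RatFunc C)}
    {U : Set (Plk C K)} (hS : IsSide A E D U) {k : K}
    (hk : IsIntegral (ball A E) ((1 : E) ⊗ₜ[RatFunc C] k)) {P : Plk C K} (hP : P ∈ U) :
    InBall P k 0 1 :=
  inBall_of_minpoly fun i => inBall_of_integral (A := A) (E := E) D hS.dense (hS.val P hP)
    (hS.quot P hP _) (isIntegral_minpoly_coeff (ball A E) hk i)

/-- `(⇒)` of the dictionary. -/
theorem IsSide.powOn {A : Subalgebra C (F0 C)} {D : Subalgebra C (RatFunc C)}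
    {U : Set (Plk C K)} (hS : IsSide A E D U) {n : ℕ} (hn : n ≠ 0) {f : K} (hf : f ≠ 0)
    (h : ∃ z : E ⊗[RatFunc C] K, z ^ n = (1 : E) ⊗ₜ[RatFunc C] f) {ε : ℝ} (hε : 0 < ε) :
    PowOn n ε U f := by
  obtain ⟨z, hz⟩ := h
  obtain ⟨s, hs0, hs1⟩ := NormedField.exists_norm_lt C (lt_min hε (one_half_pos : (0 : ℝ) < 1 / 2))
  have hsne : s ≠ 0 := norm_pos_iff.1 hs0
  have hs2 : ‖s‖ < 1 := hs1.trans_le ((min_le_right _ _).trans (by norm_num))
  have hE : ∀ c : C, algebraMap E (F0 C) (algebraMap (RatFunc C) E (algebraMap C (RatFunc C) c)) =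
      algebraMap C (F0 C) c := by
    intro c
    rw [← IsScalarTower.algebraMap_apply (RatFunc C) E (F0 C)]
    rfl
  obtain ⟨g, k, hg, hfk, hk⟩ := exists_approx_root (F := RatFunc C) (E := E) (K := K) (ball A E)
    hS.f1 hS.f2 hn hf hz (s := algebraMap C (RatFunc C) s) (by rwa [Ne, map_eq_zero])
    (by
      refine mem_ball.2 ⟨?_, ?_⟩
      · rw [hE]; exact A.algebraMap_mem s
      · rw [hE, norm_algebraMap_C]; exact hs2.le)
    (by
      intro hint
      have h1 := norm_le_one_of_isIntegral hint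
      rw [← map_inv₀, hE, norm_algebraMap_C, norm_inv] at h1
      have h2 : 1 < ‖s‖⁻¹ := (one_lt_inv₀ hs0).2 hs2
      linarith)
  refine ⟨g, hg, fun P hP => ?_⟩
  obtain ⟨c, hc1, hc⟩ := inBall_zero_iff.1 (hS.inBall hk hP)
  refine inBall_iff.2 ⟨1 + s * c, ?_, ?_⟩
  · rw [add_sub_cancel_left, norm_mul]
    calc ‖s‖ * ‖c‖ ≤ ‖s‖ * 1 := by gcongr
      _ = ‖s‖ := mul_one _
      _ ≤ ε := hs1.le.trans (min_le_left _ _)
  · rw [hfk, ← IsScalarTower.algebraMap_apply C (RatFunc C) K]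
    have h1 : IsVal P (1 : K) 1 := by simpa using isVal_const (P := P) (1 : C)
    exact h1.add ((isVal_const s).mul hc)

end gen

/-! ## the data -/

section side

variable {C : Type u} [NontriviallyNormedField C] [IsUltrametricDist C] [CompleteSpace C]
  [IsAlgClosed C]

theorem f1_F1 (y : F1 C) (u : RatFunc C) (hu : u ≠ 0) : ∃ r : RatFunc C, ∃ a ∈ ball (A1 C) (F1 C),
    y = algebraMap (RatFunc C) (F1 C) r + algebraMap (RatFunc C) (F1 C) u * a := by
  set v := algebraMap (RatFunc C) (F0 C) u with hv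
  have hv0 : v ≠ 0 := alg_ne_zero hu
  obtain ⟨r0, hr0⟩ := exists_rat_near ((y : F0 C) / v) (ε := 1) one_pos
  obtain ⟨a, ha, b, hb, -, hab, hna, -⟩ := exists_split
    ((y : F0 C) / v - algebraMap (RatFunc C) (F0 C) r0)
  have haF := A1_le_F1 ha
  have hbF : b ∈ F1 C := by
    have : b = (y : F0 C) / v - algebraMap (RatFunc C) (F0 C) r0 - a := by rw [← hab]; ring
    rw [this]
    exact sub_mem (sub_mem (div_mem y.2 (IntermediateField.algebraMap_mem _ u))
      (IntermediateField.algebraMap_mem _ r0)) haF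
  have hbot : b ∈ F1 C ⊓ F2 C := ⟨hbF, A2_le_F2 hb⟩
  rw [F1_inf_F2] at hbot
  obtain ⟨r1, hr1⟩ := IntermediateField.mem_bot.1 hbot
  refine ⟨u * (r0 + r1), ⟨a, haF⟩, mem_ball.2 ⟨ha, hna.trans hr0.le⟩, ?_⟩
  apply Subtype.ext
  change (y : F0 C) = algebraMap (RatFunc C) (F0 C) (u * (r0 + r1)) + v * a
  rw [map_mul, map_add, hr1, ← hv, ← mul_add]
  have : algebraMap (RatFunc C) (F0 C) r0 + b + a = (y : F0 C) / v := by
    rw [add_assoc, add_comm b a, hab]; ring
  rw [this, mul_div_cancel₀ _ hv0]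

theorem f1_F2 (y : F2 C) (u : RatFunc C) (hu : u ≠ 0) : ∃ r : RatFunc C, ∃ a ∈ ball (A2 C) (F2 C),
    y = algebraMap (RatFunc C) (F2 C) r + algebraMap (RatFunc C) (F2 C) u * a := by
  set v := algebraMap (RatFunc C) (F0 C) u with hv
  have hv0 : v ≠ 0 := alg_ne_zero hu
  obtain ⟨r0, hr0⟩ := exists_rat_near ((y : F0 C) / v) (ε := 1) one_pos
  obtain ⟨b, hb, a, ha, -, hab, -, hna⟩ := exists_split
    ((y : F0 C) / v - algebraMap (RatFunc C) (F0 C) r0)
  have haF := A2_le_F2 ha
  have hbF : b ∈ F2 C := by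
    have : b = (y : F0 C) / v - algebraMap (RatFunc C) (F0 C) r0 - a := by rw [← hab]; ring
    rw [this]
    exact sub_mem (sub_mem (div_mem y.2 (IntermediateField.algebraMap_mem _ u))
      (IntermediateField.algebraMap_mem _ r0)) haF
  have hbot : b ∈ F1 C ⊓ F2 C := ⟨A1_le_F1 hb, hbF⟩
  rw [F1_inf_F2] at hbot
  obtain ⟨r1, hr1⟩ := IntermediateField.mem_bot.1 hbot
  refine ⟨u * (r0 + r1), ⟨a, haF⟩, mem_ball.2 ⟨ha, hna.trans hr0.le⟩, ?_⟩
  apply Subtype.ext
  change (y : F0 C) = algebraMap (RatFunc C) (F0 C) (u * (r0 + r1)) + v * a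
  rw [map_mul, map_add, hr1, ← hv, ← mul_add]
  have : algebraMap (RatFunc C) (F0 C) r0 + b + a = (y : F0 C) / v := by
    rw [add_assoc, hab]; ring
  rw [this, mul_div_cancel₀ _ hv0]

/-- a nonzero constant making two elements small -/
theorem exists_small_const (x y : F0 C) : ∃ c : C, c ≠ 0 ∧ ‖algebraMap C (F0 C) c * x‖ ≤ 1 ∧
    ‖algebraMap C (F0 C) c * y‖ ≤ 1 := by
  have hpos : 0 < (max 1 (max ‖x‖ ‖y‖))⁻¹ := by positivity
  obtain ⟨c, hc0, hc1⟩ := NormedField.exists_norm_lt C hpos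
  have hM : 0 < max 1 (max ‖x‖ ‖y‖) := by positivity
  refine ⟨c, norm_pos_iff.1 hc0, ?_, ?_⟩
  · rw [norm_mul, norm_algebraMap_C]
    calc ‖c‖ * ‖x‖ ≤ (max 1 (max ‖x‖ ‖y‖))⁻¹ * (max 1 (max ‖x‖ ‖y‖)) := by
          gcongr
          exact (le_max_left _ _).trans (le_max_right _ _)
      _ = 1 := inv_mul_cancel₀ hM.ne'
  · rw [norm_mul, norm_algebraMap_C]
    calc ‖c‖ * ‖y‖ ≤ (max 1 (max ‖x‖ ‖y‖))⁻¹ * (max 1 (max ‖x‖ ‖y‖)) := by
          gcongr
          exact (le_max_right _ _).trans (le_max_right _ _)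
      _ = 1 := inv_mul_cancel₀ hM.ne'

theorem f2_F1 (y : F1 C) : ∃ q : RatFunc C, q ≠ 0 ∧ algebraMap (RatFunc C) (F1 C) q ∈
    ball (A1 C) (F1 C) ∧ algebraMap (RatFunc C) (F1 C) q * y ∈ ball (A1 C) (F1 C) := by
  obtain ⟨D, hD, hDy⟩ := mem_F1.1 y.2
  obtain ⟨c, hc, h1, h2⟩ := exists_small_const (aeval (tt C) D) (aeval (tt C) D * (y : F0 C))
  have hcast : ∀ q : RatFunc C, algebraMap (F1 C) (F0 C) (algebraMap (RatFunc C) (F1 C) q) =
      algebraMap (RatFunc C) (F0 C) q := fun q => rfl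
  have e : algebraMap (RatFunc C) (F0 C) (algebraMap C (RatFunc C) c * algebraMap C[X] (RatFunc C) D)
      = algebraMap C (F0 C) c * aeval (tt C) D := by
    rw [map_mul, algebraMap_poly]; rfl
  refine ⟨algebraMap C (RatFunc C) c * algebraMap C[X] (RatFunc C) D,
    mul_ne_zero (by rwa [Ne, map_eq_zero]) (RatFunc.algebraMap_ne_zero hD), ?_, ?_⟩
  · refine mem_ball.2 ?_
    rw [hcast, e]
    exact ⟨mul_mem (algebraMap_mem _ _) (aeval_mem_A1 D), h1⟩
  · refine mem_ball.2 ?_
    rw [map_mul, hcast, e, mul_assoc]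
    exact ⟨mul_mem (algebraMap_mem _ _) hDy, h2⟩

theorem f2_F2 (y : F2 C) : ∃ q : RatFunc C, q ≠ 0 ∧ algebraMap (RatFunc C) (F2 C) q ∈
    ball (A2 C) (F2 C) ∧ algebraMap (RatFunc C) (F2 C) q * y ∈ ball (A2 C) (F2 C) := by
  obtain ⟨D, hD', hD, hDy⟩ := mem_F2.1 y.2
  obtain ⟨c, hc, h1, h2⟩ := exists_small_const (algebraMap (RatFunc C) (F0 C) D)
    (algebraMap (RatFunc C) (F0 C) D * (y : F0 C))
  have hcast : ∀ q : RatFunc C, algebraMap (F2 C) (F0 C) (algebraMap (RatFunc C) (F2 C) q) =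
      algebraMap (RatFunc C) (F0 C) q := fun q => rfl
  have e : algebraMap (RatFunc C) (F0 C) (algebraMap C (RatFunc C) c * D)
      = algebraMap C (F0 C) c * algebraMap (RatFunc C) (F0 C) D := by
    rw [map_mul]; rfl
  refine ⟨algebraMap C (RatFunc C) c * D, mul_ne_zero (by rwa [Ne, map_eq_zero]) hD, ?_, ?_⟩
  · refine mem_ball.2 ?_
    rw [hcast, e]
    exact ⟨mul_mem (algebraMap_mem _ _) (algebraMap_mem_A2_of hD'), h1⟩
  · refine mem_ball.2 ?_
    rw [map_mul, hcast, e, mul_assoc]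
    exact ⟨mul_mem (algebraMap_mem _ _) hDy, h2⟩

end side

section places

variable {C K : Type u} [NontriviallyNormedField C] [IsUltrametricDist C] [CompleteSpace C]
  [IsAlgClosed C] [Field K] [Algebra C K] [CFF C K] [Algebra (RatFunc C) K]
  [IsScalarTower C (RatFunc C) K] [FiniteDimensional (RatFunc C) K]

/-- polynomials as a subalgebra of `C(t)` -/
def D1 (C : Type u) [Field C] : Subalgebra C (RatFunc C) :=
  (IsScalarTower.toAlgHom C C[X] (RatFunc C)).range

theorem aeval_eq' (p : C[X]) : algebraMap (RatFunc C) K (algebraMap C[X] (RatFunc C) p) =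
    aeval (algebraMap (RatFunc C) K RatFunc.X) p := by
  rw [← RatFunc.algebraMap_X, aeval_algebraMap_apply, aeval_algebraMap_apply, aeval_X_left_apply]

theorem isVal_aeval {P : Plk C K} {T : K} {a : C} (h : IsVal P T a) (p : C[X]) :
    IsVal P (aeval T p) (p.eval a) := by
  rw [aeval_eq_sum_range, eval_eq_sum_range]
  refine IsVal.sum _ fun i _ => ?_
  rw [Algebra.smul_def]
  exact (isVal_const _).mul (h.pow i)

theorem norm_eval_le {p : C[X]} {a : C} (ha : ‖a‖ ≤ 1) : ‖p.eval a‖ ≤ gp p := by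
  rw [eval_eq_sum_range]
  refine norm_sum_le_of_forall _ _ (gp_nonneg p) fun i _ => ?_
  rw [norm_mul, norm_pow]
  exact (mul_le_of_le_one_right (norm_nonneg _) (pow_le_one₀ (norm_nonneg _) ha)).trans
    (norm_coeff_le p i)

theorem isSide1 : IsSide (K := K) (A1 C) (F1 C) (D1 C)
    (Inn (C := C) (algebraMap (RatFunc C) K RatFunc.X)) where
  f1 := f1_F1
  f2 := f2_F1
  dense := by
    intro a ha η hη
    obtain ⟨p, hp⟩ := exists_poly_near ha hη
    refine ⟨algebraMap C[X] (RatFunc C) p, ⟨p, rfl⟩, ?_⟩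
    rwa [algebraMap_poly]
  val := by
    rintro P hP d ⟨p, rfl⟩
    obtain ⟨a, ha1, ha⟩ := inBall_zero_iff.1 (show InBall P _ 0 1 from hP)
    refine inBall_zero_iff.2 ⟨p.eval a, ?_, ?_⟩
    · change _ ≤ gauss C (algebraMap C[X] (RatFunc C) p)
      rw [gauss_poly]
      exact norm_eval_le ha1
    · change IsVal P (algebraMap (RatFunc C) K (algebraMap C[X] (RatFunc C) p)) _
      rw [aeval_eq']
      exact isVal_aeval ha p
  quot := by
    intro P hP c
    obtain ⟨a, ha1, ha⟩ := inBall_zero_iff.1 (show InBall P _ 0 1 from hP)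
    refine ⟨algebraMap C[X] (RatFunc C) c.num, ⟨_, rfl⟩, algebraMap C[X] (RatFunc C) c.denom,
      ⟨_, rfl⟩, RatFunc.algebraMap_ne_zero c.denom_ne_zero, c.num_div_denom.symm, ?_⟩
    rintro ⟨h1, h2⟩
    rw [aeval_eq'] at h1 h2
    have h3 := (isVal_aeval ha c.num).unique h1
    have h4 := (isVal_aeval ha c.denom).unique h2
    obtain ⟨u, v, huv⟩ := c.isCoprime_num_denom
    have h5 := congrArg (eval a) huv
    rw [eval_add, eval_mul, eval_mul, h3, h4, mul_zero, mul_zero, add_zero, eval_one] at h5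
    exact zero_ne_one h5

/-! ### the outer side -/

/-- the value of `1/T` off the inner side -/
theorem exists_val_inv {P : Plk C K} {T : K} (hT : T ≠ 0) (hP : P ∉ Inn (C := C) T) :
    ∃ α : C, ‖α‖ < 1 ∧ IsVal P T⁻¹ α := by
  by_cases h : T ∈ Mge P 0
  · obtain ⟨a, ha⟩ := exists_isVal h
    have ha1 : 1 < ‖a‖ := by
      by_contra hcon
      push Not at hcon
      exact hP (inBall_zero_iff.2 ⟨a, hcon, ha⟩)
    have ha0 : a ≠ 0 := norm_pos_iff.1 (one_pos.trans ha1)
    refine ⟨a⁻¹, ?_, ?_⟩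
    · rw [norm_inv]; exact inv_lt_one_of_one_lt₀ ha1
    · have h1 : IsVal P (1 : K) 1 := by simpa using isVal_const (P := P) (1 : C)
      have := h1.div ha ha0
      rwa [one_div, one_div] at this
  · refine ⟨0, by simp, isVal_zero_iff.2 (Or.inr ?_)⟩
    rw [mem_Mge, not_or] at h
    rw [ord_inv]
    have := h.2
    omega

/-- the value of `p(T)/T^m`, `m ≥ deg p`. -/
theorem isVal_reflect {P : Plk C K} {T : K} (hT : T ≠ 0) {α : C} (hα : IsVal P T⁻¹ α) {p : C[X]}
    {m : ℕ} (hm : p.natDegree ≤ m) :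
    IsVal P (aeval T p / T ^ m) (∑ i ∈ Finset.range (m + 1), p.coeff i * α ^ (m - i)) := by
  have h1 : aeval T p = ∑ i ∈ Finset.range (m + 1), algebraMap C K (p.coeff i) * T ^ i := by
    rw [aeval_eq_sum_range' (Nat.lt_succ_of_le hm)]
    simp only [Algebra.smul_def]
  rw [h1, Finset.sum_div]
  refine IsVal.sum _ fun i hi => ?_
  rw [Finset.mem_range] at hi
  have h2 : algebraMap C K (p.coeff i) * T ^ i / T ^ m =
      algebraMap C K (p.coeff i) * T⁻¹ ^ (m - i) := by
    have : T ^ m = T ^ i * T ^ (m - i) := by rw [← pow_add]; congr 1; omega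
    rw [this, inv_pow]
    field_simp
  rw [h2]
  exact (isVal_const _).mul (hα.pow _)

theorem norm_reflect_le {α : C} (hα : ‖α‖ < 1) {p : C[X]} {m : ℕ} :
    ‖∑ i ∈ Finset.range (m + 1), p.coeff i * α ^ (m - i)‖ ≤ gp p := by
  refine norm_sum_le_of_forall _ _ (gp_nonneg p) fun i _ => ?_
  rw [norm_mul, norm_pow]
  exact (mul_le_of_le_one_right (norm_nonneg _) (pow_le_one₀ (norm_nonneg _) hα.le)).trans
    (norm_coeff_le p i)

theorem norm_reflect_monic {α : C} (hα : ‖α‖ < 1) {p : C[X]} (hp : p.Monic)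
    (hp1 : ∀ i, ‖p.coeff i‖ ≤ 1) :
    ‖∑ i ∈ Finset.range (p.natDegree + 1), p.coeff i * α ^ (p.natDegree - i)‖ = 1 := by
  have hlead : p.coeff p.natDegree = 1 := hp
  rw [Finset.sum_range_succ, Nat.sub_self, pow_zero, mul_one, hlead]
  have h1 : ‖∑ i ∈ Finset.range p.natDegree, p.coeff i * α ^ (p.natDegree - i)‖ < 1 := by
    refine (norm_sum_le_of_forall _ _ (norm_nonneg α) fun i hi => ?_).trans_lt hα
    rw [Finset.mem_range] at hi
    rw [norm_mul, norm_pow]
    calc ‖p.coeff i‖ * ‖α‖ ^ (p.natDegree - i) ≤ 1 * ‖α‖ ^ (p.natDegree - i) := by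
          gcongr; exact hp1 i
      _ = ‖α‖ ^ (p.natDegree - i) := one_mul _
      _ ≤ ‖α‖ ^ 1 := pow_le_pow_of_le_one (norm_nonneg _) hα.le (by omega)
      _ = ‖α‖ := pow_one _
  have h2 : ‖∑ i ∈ Finset.range p.natDegree, p.coeff i * α ^ (p.natDegree - i)‖ <
      ‖(1 : C)‖ := by rwa [norm_one]
  rw [IsUltrametricDist.norm_add_eq_max_of_norm_ne_norm h2.ne, max_eq_right h2.le, norm_one]

theorem algX_ne_zero : (algebraMap (RatFunc C) K RatFunc.X) ≠ 0 := by
  rw [Ne, map_eq_zero]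
  exact RatFunc.X_ne_zero

/-- the value of an element of `pre2` off the inner side. -/
theorem val_pre2 {P : Plk C K} (hP : P ∉ Inn (C := C) (algebraMap (RatFunc C) K RatFunc.X))
    {d : RatFunc C} (hd : d ∈ pre2 C) : InBall P (algebraMap (RatFunc C) K d) 0 (gauss C d) := by
  set T := algebraMap (RatFunc C) K RatFunc.X with hT
  have hT0 : T ≠ 0 := algX_ne_zero
  obtain ⟨α, hα1, hα⟩ := exists_val_inv hT0 hP
  obtain ⟨p, S, hS, hdeg, hS1, rfl⟩ := hd
  have hdeg' : p.natDegree ≤ S.natDegree := natDegree_le_natDegree hdeg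
  have h1 := isVal_reflect hT0 hα hdeg'
  have h2 := isVal_reflect hT0 hα (le_refl S.natDegree)
  have h3 := norm_reflect_monic hα1 hS hS1
  have h4 := h1.div h2 (norm_ne_zero_iff.1 (by rw [h3]; exact one_ne_zero))
  have hgS : gp S = 1 := by
    refine le_antisymm (gp_le_iff.2 hS1) ?_
    have := norm_coeff_le S S.natDegree
    have hlead : S.coeff S.natDegree = 1 := hS
    rwa [hlead, norm_one] at this
  have e : algebraMap (RatFunc C) K (algebraMap C[X] (RatFunc C) p /
      algebraMap C[X] (RatFunc C) S) =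
      aeval T p / T ^ S.natDegree / (aeval T S / T ^ S.natDegree) := by
    rw [map_div₀, aeval_eq', aeval_eq', ← hT,
      div_div_div_cancel_right₀ (pow_ne_zero _ hT0)]
  rw [← e] at h4
  refine inBall_zero_iff.2 ⟨_, ?_, h4⟩
  rw [norm_div, h3, div_one, gauss_div, hgS, div_one]
  exact norm_reflect_le hα1

theorem isSide2 : IsSide (K := K) (A2 C) (F2 C) (pre2 C)
    (Inn (C := C) (algebraMap (RatFunc C) K RatFunc.X))ᶜ where
  f1 := f1_F2
  f2 := f2_F2
  dense := fun a ha η hη => exists_pre2_near ha hη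
  val := fun P hP d hd => val_pre2 hP hd
  quot := by
    intro P hP c
    have hT0 : (algebraMap (RatFunc C) K RatFunc.X) ≠ 0 := algX_ne_zero
    obtain ⟨α, hα1, hα⟩ := exists_val_inv hT0 hP
    set m := max c.num.natDegree c.denom.natDegree with hm
    have hXm : (algebraMap C[X] (RatFunc C) (X ^ m)) ≠ 0 :=
      RatFunc.algebraMap_ne_zero (pow_ne_zero _ X_ne_zero)
    have hd0 : (algebraMap C[X] (RatFunc C) c.denom) ≠ 0 :=
      RatFunc.algebraMap_ne_zero c.denom_ne_zero
    have hmem : ∀ p : C[X], p.natDegree ≤ m →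
        algebraMap C[X] (RatFunc C) p / algebraMap C[X] (RatFunc C) (X ^ m) ∈ pre2 C := by
      intro p hp
      refine ⟨p, X ^ m, monic_X_pow m, ?_, ?_, rfl⟩
      · rw [degree_X_pow]; exact natDegree_le_iff_degree_le.1 hp
      · intro i
        rw [coeff_X_pow]
        split_ifs <;> simp
    refine ⟨_, hmem c.num (le_max_left _ _), _, hmem c.denom (le_max_right _ _),
      div_ne_zero hd0 hXm, ?_, ?_⟩
    · rw [div_div_div_cancel_right₀ hXm, c.num_div_denom]
    · rintro ⟨h1, h2⟩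
      rw [map_div₀, aeval_eq', aeval_eq', map_pow, aeval_X] at h1 h2
      have h3 := (isVal_reflect hT0 hα (le_max_left c.num.natDegree c.denom.natDegree)).unique h1
      have h4 := (isVal_reflect hT0 hα (le_max_right c.num.natDegree c.denom.natDegree)).unique h2
      rw [← hm] at h3 h4
      by_cases hα0 : α = 0
      · have key : ∀ p : C[X], ∑ i ∈ Finset.range (m + 1), p.coeff i * α ^ (m - i) = p.coeff m := by
          intro p
          rw [Finset.sum_range_succ, Nat.sub_self, pow_zero, mul_one,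
            Finset.sum_eq_zero, zero_add]
          intro i hi
          rw [Finset.mem_range] at hi
          rw [hα0, zero_pow (by omega), mul_zero]
        rw [key] at h3 h4
        rcases le_total c.num.natDegree c.denom.natDegree with h | h
        · rw [hm, max_eq_right h] at h4
          exact c.denom_ne_zero (leadingCoeff_eq_zero.1 h4)
        · rw [hm, max_eq_left h] at h3
          have hn0 : c.num = 0 := leadingCoeff_eq_zero.1 h3
          rw [hn0, natDegree_zero] at h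
          have hd1 : c.denom.natDegree = 0 := Nat.le_zero.1 h
          rw [hm, hn0, natDegree_zero, hd1, max_self] at h4
          rw [eq_C_of_natDegree_eq_zero hd1, h4, map_zero] at hd0
          exact hd0 (map_zero _)
      · have key : ∀ p : C[X], p.natDegree ≤ m →
            ∑ i ∈ Finset.range (m + 1), p.coeff i * α ^ (m - i) = α ^ m * p.eval α⁻¹ := by
          intro p hp
          rw [eval_eq_sum_range' (Nat.lt_succ_of_le hp), Finset.mul_sum]
          refine Finset.sum_congr rfl fun i hi => ?_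
          rw [Finset.mem_range] at hi
          have : α ^ m = α ^ (m - i) * α ^ i := by rw [← pow_add]; congr 1; omega
          rw [this, inv_pow]
          field_simp
        rw [key _ (le_max_left _ _)] at h3
        rw [key _ (le_max_right _ _)] at h4
        have h5 := (mul_eq_zero.1 h3).resolve_left (pow_ne_zero _ hα0)
        have h6 := (mul_eq_zero.1 h4).resolve_left (pow_ne_zero _ hα0)
        obtain ⟨u, v, huv⟩ := c.isCoprime_num_denom
        have h7 := congrArg (eval α⁻¹) huv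
        rw [eval_add, eval_mul, eval_mul, h5, h6, mul_zero, mul_zero, add_zero, eval_one] at h7
        exact zero_ne_one h7

end places

end

end P025H621
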