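import Vale.Agent.P025.R2.H621.D0
import Vale.Agent.P025.R2.H621.DictTo
import Vale.Agent.P025.R2.H905.DictOf
import Vale.Agent.P025.R2.H802.Plug
import Vale.Agent.P025.R2.H970.NTfin
import Vale.Agent.P025.R2.H725.OneVertex
import Vale.Agent.P025.R2.H725.StartDisc

/-!
# P025, section 7 (G-START): the sub-rows, all proved (helper621)

(names of the former contract; definitions in `H621/Defs7.lean`)
-/

open Polynomial TensorProduct

universe u

namespace P025H621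

open Vale.Agent.P019P P025H373 P025H544 P025H746 P025H725

noncomputable section

/-! ## S2 (helper905): values of characteristic polynomials. -/

section S2

variable {C K : Type u} [NormedField C] [IsUltrametricDist C] [IsAlgClosed C] [Field K]
  [Algebra C K] [CFF C K]

/-- values of the characteristic polynomial: there are `N` and `c : Fin N → C(t)` such that for
every `b ∈ C` over which `h` is regular, the `c i` are regular at `b` and
`|h(P)| ≤ R` for all `P` over `b` iff `|c_i(b)| ≤ R^(i+1)` for all `i`. -/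
theorem exists_coeffs (t : K) (ht : Transcendental C t) (h : K) :
    ∃ (N : ℕ) (c : Fin N → RatFunc C), ∀ b : C, (∀ P ∈ Over t b, h ∈ Mge P 0) →
      (∀ i, (c i).denom.eval b ≠ 0) ∧
      ∀ R : ℝ, 0 ≤ R → ((∀ P ∈ Over t b, InBall P h 0 R) ↔
        ∀ i, ‖(c i).eval (RingHom.id C) b‖ ≤ R ^ ((i : ℕ) + 1)) :=
  P025H802P.exists_coeffs t ht h

end S2

/-! ## S3 (helper802): function theory on discs -/

section S3

variable {C K : Type u} [NontriviallyNormedField C] [IsUltrametricDist C] [CompleteSpace C]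
  [IsAlgClosed C] [Field K] [Algebra C K] [CFF C K]

/-- overconvergence -/
theorem exists_bigger_disc (hv : ∀ r : ℝ, 0 ≤ r → ∃ x : C, ‖x‖ = r)
    (t : K) (ht : Transcendental C t) (a : C) (r : ℝ) (hr : 0 < r)
    (h : K) (ε : ℝ) (hε : 0 < ε) (hh : ∀ P ∈ Disc t a r, InBall P h 0 ε) :
    ∃ r₁, r < r₁ ∧ ∀ P ∈ Disc t a r₁, InBall P h 0 (2 * ε) :=
  P025H802P.exists_bigger_disc hv t ht a r hr h ε hε hh

/-- outer version: `h` small off the disc `|t - a₀| ≤ r₀` is small off finitely many slightly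
smaller discs in different residue directions. -/
theorem exists_outer (hv : ∀ r : ℝ, 0 ≤ r → ∃ x : C, ‖x‖ = r)
    (t : K) (ht : Transcendental C t) (a₀ : C) (r₀ : ℝ) (hr₀ : 0 < r₀)
    (h : K) (ε : ℝ) (hε : 0 < ε) (hh : ∀ P ∉ Disc t a₀ r₀, InBall P h 0 ε) :
    ∃ (Δ : Finset C) (r : ℝ), Δ.Nonempty ∧ 0 < r ∧ r < r₀ ∧ (∀ δ ∈ Δ, ‖δ - a₀‖ ≤ r₀) ∧
      (∀ δ ∈ Δ, ∀ δ' ∈ Δ, δ ≠ δ' → ‖δ - δ'‖ = r₀) ∧
      ∀ P : Plk C K, (∀ δ ∈ Δ, P ∉ Disc t δ r) → InBall P h 0 (2 * ε) :=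
  P025H802P.exists_outer hv t ht a₀ r₀ hr₀ h ε hε hh

/-- small discs -/
theorem powOn_small {p : ℕ} (hp : p ≠ 0) (t : K) (ht : Transcendental C t) (f : K) (hf : f ≠ 0)
    (hd : DivN C p f) (ε : ℝ) (hε : 0 < ε) (a : C) : ∃ r, 0 < r ∧ PowOn p ε (Disc t a r) f :=
  P025H802P.powOn_small hp t ht f hf hd ε hε a

/-- outside of large discs -/
theorem powOn_large {p : ℕ} (hp : p ≠ 0) (t : K) (ht : Transcendental C t) (f : K) (hf : f ≠ 0)
    (hd : DivN C p f) (ε : ℝ) (hε : 0 < ε) (a : C) :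
    ∃ R, 0 < R ∧ PowOn p ε (Disc t a R)ᶜ f :=
  P025H802P.powOn_large hp t ht f hf hd ε hε a

end S3

/-! ## S4 (helper802): disjoint discs -/

section S4

variable {C K : Type u} [NontriviallyNormedField C] [IsUltrametricDist C] [CompleteSpace C]
  [IsAlgClosed C] [Field K] [Algebra C K] [CFF C K]

/-- approximate powers on finitely many disjoint discs of the same radius glue. -/
theorem powOn_iUnion (hv : ∀ r : ℝ, 0 ≤ r → ∃ x : C, ‖x‖ = r) {p : ℕ} (_hp : p ≠ 0)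
    (t : K) (ht : Transcendental C t) (f : K) (_hf : f ≠ 0) (r : ℝ) (hr : 0 < r)
    (Δ : Finset C) (hΔ : ∀ δ ∈ Δ, ∀ δ' ∈ Δ, δ ≠ δ' → r < ‖δ - δ'‖) (ε : ℝ) (hε : 0 < ε)
    (hε1 : ε < 1) (h : ∀ δ ∈ Δ, PowOn p ε (Disc t δ r) f) :
    PowOn p ε (⋃ δ ∈ Δ, Disc t δ r) f :=
  P025H802P.powOn_iUnion hv t ht f r hr Δ hΔ ε hε hε1 h

/-- the function `τ` with `{|τ| ≤ 1} = ⋃ Disc t δ ‖b‖`. -/
theorem inn_tau (t : K) (ht : Transcendental C t) (Δ : Finset C) (hne : Δ.Nonempty) (b : C)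
    (hb : b ≠ 0) (hΔ : ∀ δ ∈ Δ, ∀ δ' ∈ Δ, δ ≠ δ' → ‖b‖ < ‖δ - δ'‖) :
    ∃ τ : K, Transcendental C τ ∧ Inn τ = ⋃ δ ∈ Δ, Disc t δ ‖b‖ :=
  P025H802P.inn_tau t ht Δ hne b hb hΔ

end S4

/-! ## G-DICT (helper905; `dict1_to`, `dict2_to` are in `H621/DictTo.lean`) -/

section Dict

variable {C K : Type u} [NontriviallyNormedField C] [IsUltrametricDist C] [CompleteSpace C]
  [IsAlgClosed C] [Field K] [Algebra C K] [CFF C K] [Algebra (RatFunc C) K]
  [IsScalarTower C (RatFunc C) K] [FiniteDimensional (RatFunc C) K]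

theorem dict1_of {n : ℕ} (hn : (n : C) ≠ 0) {f : K} (_hf : f ≠ 0) {ε : ℝ}
    (hε : ε < ‖(n : C)‖ ^ 2)
    (h : PowOn n ε (Inn (C := C) (algebraMap (RatFunc C) K RatFunc.X)) f) :
    PowIn (RatFunc C) (F1 C) n f :=
  P025H905.dict1_of hn hε h

theorem dict2_of {n : ℕ} (hn : (n : C) ≠ 0) {f : K} (_hf : f ≠ 0) {ε : ℝ}
    (hε : ε < ‖(n : C)‖ ^ 2)
    (h : PowOn n ε (Inn (C := C) (algebraMap (RatFunc C) K RatFunc.X))ᶜ f) :
    PowIn (RatFunc C) (F2 C) n f :=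
  P025H905.dict2_of hn hε h

/-! ## S1 (helper970, helper613): (NT) -/

/-- (7.5), points of `F0 ⊗ K` (helper970) -/
theorem nt_pt [CharZero C] {p : ℕ} (hp : p.Prime) (hpC : ‖(p : C)‖ < 1)
    (hw : ∀ f : K, f ≠ 0 → DivN C p f → ∀ e : Pt (RatFunc C) (F0 C) K,
      (p : ℤ) ∣ wind C (Algebra.norm (F0 C)
        (Ideal.Quotient.mk e.asIdeal ((1 : F0 C) ⊗ₜ[RatFunc C] f))))
    {x : K} (hx : x ≠ 0) (h1 : PowIn (RatFunc C) (F1 C) p x) (h2 : PowIn (RatFunc C) (F2 C) p x) :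
    ∃ y : K, y ^ p = x :=
  P025H970.nt_pt hp hpC hw hx h1 h2

/-- (7.5) -/
theorem nt [CharZero C] {p : ℕ} (hp : p.Prime) (hpC : ‖(p : C)‖ < 1)
    (hw : ∀ f : K, f ≠ 0 → DivN C p f → ∀ w : NV C K,
      w.OverG (algebraMap (RatFunc C) K RatFunc.X) → NearW p w f)
    {x : K} (hx : x ≠ 0) (h1 : PowIn (RatFunc C) (F1 C) p x) (h2 : PowIn (RatFunc C) (F2 C) p x) :
    ∃ y : K, y ^ p = x :=
  nt_pt hp hpC (fun f hf hd => dvd_wind hp hpC hf (hw f hf hd)) hx h1 h2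

end Dict

end

end P025H621
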