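import Vale.Agent.P025.R2.H725.Near7

/-!
# THEOREM 7 over a spherically complete field (helper621, helper725)
-/

universe u

namespace P025H621

open Vale.Agent.P019P P025H373 P025H746 P025H725

/-- **Theorem 7**, spherically complete case. -/
theorem start (C : Type u) [NontriviallyNormedField C] [IsUltrametricDist C] [CompleteSpace C]
    [IsAlgClosed C] [CharZero C]
    (hv : ∀ r : ℝ, 0 ≤ r → ∃ x : C, ‖x‖ = r) (hC : SphComplete C) {p : ℕ} (hp : p.Prime)
    (hpC : ‖(p : C)‖ < 1) (K : Type u) [Field K] [Algebra C K] [CFF C K] (hg : 2 ≤ gen C K)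
    (hK : NearAll C p K)
    (hW : ∀ (W : Type u) [Field W] [Algebra K W] [Algebra C W] [IsScalarTower C K W] [CFF C W],
      IsCover C p K W → NearAll C p W) : False :=
  P025H725.start_near hv hC hp hpC (by omega) hK hW

end P025H621
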